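import Vale.Agent.P150H.D

/-! Small balls. -/

namespace Vale.Agent.P150H

open Vale.Agent.P150 Finset Function Real MeasureTheory ProbabilityTheory Filter Topology

noncomputable section

variable {α κ : Type} [Fintype α] [Fintype κ]

theorem Ball_char (u : κ → ℝ) {l : ℝ} (hl : 0 ≤ l) :
    ∫ x, Complex.exp ((∑ a, √(2 * l) * u a * x a : ℝ) * Complex.I) ∂gm κ =
      (exp (-l * ∑ a, u a ^ 2) : ℝ) := by
  rw [char_gm fun a => √(2 * l) * u a, Complex.ofReal_exp]
  congr 1
  have e : ∑ a, (√(2 * l) * u a) ^ 2 = 2 * l * ∑ a, u a ^ 2 := by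
    rw [mul_sum]
    exact sum_congr rfl fun a _ => by rw [mul_pow, sq_sqrt (by positivity)]
  rw [e]
  push_cast
  ring

theorem Ball_int {X : (κ → ℝ) → ℝ} (hX : Continuous X) (h0 : ∀ x, 0 ≤ X x) {l : ℝ} (hl : 0 ≤ l) :
    Integrable (fun x => exp (-l * X x)) (gm κ) :=
  (integrable_const (1 : ℝ)).mono' (by fun_prop) (Eventually.of_forall fun x => by
    rw [Real.norm_eq_abs, abs_of_pos (exp_pos _), exp_le_one_iff, neg_mul, neg_nonpos]
    exact mul_nonneg hl (h0 x))

theorem Ball_swap (a : α → κ → ℝ) {l : ℝ} (hl : 0 ≤ l) :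
    ∫ g, exp (-l * ∑ i, (∑ p, a p i * g p) ^ 2) ∂gm α =
      ∫ θ, exp (-l * ∑ p, (∑ i, θ i * a p i) ^ 2) ∂gm κ := by
  apply Complex.ofReal_injective
  rw [← integral_complex_ofReal, ← integral_complex_ofReal]
  simp only [← Ball_char _ hl]
  rw [integral_integral_swap]
  · refine integral_congr_ae (Eventually.of_forall fun θ => ?_)
    refine integral_congr_ae (Eventually.of_forall fun g => ?_)
    have e : ∑ i, √(2 * l) * (∑ p, a p i * g p) * θ i =
        ∑ p, √(2 * l) * (∑ i, θ i * a p i) * g p := by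
      simp only [mul_sum, sum_mul]
      rw [sum_comm]
      exact sum_congr rfl fun p _ => sum_congr rfl fun i _ => by ring
    simp only [e]
  · refine (integrable_const (1 : ℝ)).mono' (Continuous.aestronglyMeasurable ?_)
      (Eventually.of_forall fun x => (Complex.norm_exp_ofReal_mul_I _).le)
    unfold uncurry
    fun_prop

theorem Ball_one {m : ℝ} (hm : 0 ≤ m) :
    ∫ y, exp (-m * y ^ 2) ∂gaussianReal 0 1 = (√(1 + 2 * m))⁻¹ := by
  have e : ∫ y, exp (-m * y ^ 2) ∂gaussianReal 0 1 = (√(2 * π))⁻¹ * √(π / (1 / 2 + m)) := by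
    rw [integral_gaussianReal_eq_integral_smul one_ne_zero, ← integral_gaussian,
      ← integral_const_mul]
    refine integral_congr_ae (Filter.Eventually.of_forall fun y => ?_)
    simp only [gaussianPDFReal, NNReal.coe_one, mul_one, smul_eq_mul, sub_zero, mul_assoc,
      ← exp_add]
    congr 2
    ring
  have h3 := pi_pos
  rw [e, ← div_eq_inv_mul, ← sqrt_div (by positivity), ← sqrt_inv]
  congr 1
  field_simp

theorem small_ball (a : α → κ → ℝ) {σ l : ℝ} (hσ : 0 ≤ σ) (hl : 0 ≤ l)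
    (h : ∀ θ : κ → ℝ, σ * ∑ i, θ i ^ 2 ≤ ∑ p, (∑ i, θ i * a p i) ^ 2) (ρ : ℝ) :
    gm α {g | ∑ i, (∑ p, a p i * g p) ^ 2 ≤ ρ} ≤
      ENNReal.ofReal (exp (l * ρ) * (√(1 + 2 * l * σ))⁻¹ ^ Fintype.card κ) := by
  have h4 := measure_le_le_exp_mul_mgf (μ := gm α) (X := fun g => ∑ i, (∑ p, a p i * g p) ^ 2) ρ
    (neg_nonpos.2 hl) (Ball_int (by fun_prop) (fun x => by positivity) hl)
  rw [mgf, neg_neg, Ball_swap a hl] at h4
  rw [← ofReal_measureReal]
  refine ENNReal.ofReal_le_ofReal (h4.trans (mul_le_mul_of_nonneg_left ?_ (exp_pos _).le))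
  have hm : 0 ≤ l * σ := mul_nonneg hl hσ
  have e : ∫ θ, exp (-(l * σ) * ∑ i, θ i ^ 2) ∂gm κ = (√(1 + 2 * l * σ))⁻¹ ^ Fintype.card κ := by
    simp only [mul_sum, exp_sum]
    rw [integral_fintype_prod_eq_prod (f := fun _ y => exp (-(l * σ) * y ^ 2)), Ball_one hm,
      prod_const, card_univ, mul_assoc]
  rw [← e]
  refine integral_mono (Ball_int (by fun_prop) (fun x => by positivity) hl)
    (Ball_int (by fun_prop) (fun x => by positivity) hm) fun θ => exp_le_exp.2 ?_
  have := mul_le_mul_of_nonneg_left (h θ) hl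
  linarith

end

end Vale.Agent.P150H
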