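import Vale.Agent.P150H.Lyap

/-! The Poincare inequality.
`diam`: more than half of the sites have `|lf| ≤ k` for both configurations, there the difference is at most `2 k ≤ r`; `sep`.
`bad_le`: if no configuration is `Bad` the left side is zero. Else fix a `Bad` `x₀`; `ψ x = if hd (update x i (x₀ i)) x₀ < D then 1 else 0`
is `Ind i`, at least the indicator of `Bad` (`diam`) and at most the indicator of `hd x x₀ ≤ D`;
`E ψ * ee W f i = E ψ * (Dw W i f) ^ 2` (as `Ex_Dw_sq`, or `Ex_mul_Qw`); `lyap` for `φ = Dw W i f`.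
`bochner`: `X ≥ η / 4 Dir - 3 Bad`, `H ≤ 2 X + 20 Dir`, `big`, `tap`: `(1 + 600 / N) X ≥ η / 8 Dir`.
`smul`: as `Good.smul`. `poi`: for `s ≤ 9 / 10` the matrix `s J` is `Good` with `η` (`quad` for `S = univ`), else
`smul` and `2 k ≤ s * (3 k)`; `poincare_of_bochner`. -/

namespace Vale.Agent.P150H

open Vale.Agent.P150 Finset Function Real

noncomputable section

variable {ι : Type} [Fintype ι] [DecidableEq ι] {J : ι → ι → ℝ} {h : ι → ℝ} {η k r c : ℝ} {D : ℕ}

theorem Nice.diam (hJ : Nice J η k r D) (hr : 2 * k ≤ r) {x y : ι → Bool} (hx : Bad J h k x)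
    (hy : Bad J h k y) : hd x y < D := by
  by_contra hD
  have h1 := hJ.sep x y (not_lt.1 hD)
  unfold Bad at hx hy
  have h2 : (univ : Finset ι) ⊆
      (univ.filter fun i => |∑ j, J i j * (spin (x j) - spin (y j))| ≤ r) ∪
        ((univ.filter fun i => k < |lf J h i x|) ∪ univ.filter fun i => k < |lf J h i y|) := by
    intro i _
    simp only [mem_union, mem_filter, mem_univ, true_and]
    by_cases h3 : k < |lf J h i x|
    · exact Or.inr (Or.inl h3)
    by_cases h4 : k < |lf J h i y|
    · exact Or.inr (Or.inr h4)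
    left
    have e : ∑ j, J i j * (spin (x j) - spin (y j)) = lf J h i x - lf J h i y := by
      simp only [lf, mul_sub, sum_sub_distrib]
      ring
    rw [e]
    have h5 := abs_sub (lf J h i x) (lf J h i y)
    linarith [not_lt.1 h3, not_lt.1 h4]
  have h3 := (card_le_card h2).trans ((card_union_le _ _).trans
    (Nat.add_le_add_left (card_union_le _ _) _))
  rw [card_univ] at h3
  omega

theorem combA_le (x y : ι → Bool) (i : ι) : hd (update x i (y i)) y ≤ hd x y := by
  refine card_le_card fun j hj => ?_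
  simp only [mem_filter, mem_univ, true_and] at hj ⊢
  rcases eq_or_ne j i with rfl | hi
  · simp at hj
  · rwa [update_of_ne hi] at hj

theorem combA_ge (x y : ι → Bool) (i : ι) : hd x y ≤ hd (update x i (y i)) y + 1 := by
  refine (card_le_card (t := insert i (univ.filter fun j => update x i (y i) j ≠ y j))
    fun j hj => ?_).trans (card_insert_le _ _)
  simp only [mem_filter, mem_univ, true_and, mem_insert] at hj ⊢
  rcases eq_or_ne j i with rfl | hi
  · exact Or.inl rfl
  · right
    rwa [update_of_ne hi]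

theorem combA_sq {W ψ : (ι → Bool) → ℝ} {i : ι} (hW : ∀ x, 0 < W x) (hψ : Ind i ψ)
    (f : (ι → Bool) → ℝ) :
    Ex W (fun x => ψ x * ee W f i x) = Ex W fun x => ψ x * Dw W i f x ^ 2 := by
  refine mul_left_cancel₀ two_ne_zero ?_
  rw [Ex, Ex, sum_split i, sum_split i]
  refine sum_congr rfl fun x _ => ?_
  have := (add_pos (hW (update x i true)) (hW (update x i false))).ne'
  simp only [ee, Dw_eq hW, ind_mw W i x, ind_dd i f x, hψ x, update_self, spin_true, spin_false]
  rw [mw]
  field_simp
  ring

open Classical in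
theorem Nice.bad_le (hJ : Nice J η k r D) (hr : 2 * k ≤ r) (h : ι → ℝ) (f : (ι → Bool) → ℝ) :
    (Fintype.card ι : ℝ) / 100 *
      ∑ i, Ex (isw J h) (fun x => if Bad J h k x then ee (isw J h) f i x else 0) ≤
      ∑ i, Dir (isw J h) (Dw (isw J h) i f) +
        Fintype.card ι * (1 / 2 : ℝ) ^ D * Dir (isw J h) f := by
  have hW := isw_pos J h
  by_cases hb : ∃ x₀, Bad J h k x₀
  · obtain ⟨x₀, h0⟩ := hb
    have e : Dir (isw J h) f = ∑ i, Ex (isw J h) fun x => Dw (isw J h) i f x ^ 2 := by
      simp only [Dir, sq]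
    rw [e, mul_sum, mul_sum, ← sum_add_distrib]
    refine sum_le_sum fun i _ => le_trans ?_ (hJ.lyap h0 (Dw (isw J h) i f))
    refine mul_le_mul_of_nonneg_left ?_ (by positivity)
    have hψ : Ind i fun x => if hd (update x i (x₀ i)) x₀ < D then (1 : ℝ) else 0 :=
      fun x b => by simp only [update_idem]
    refine le_trans (Ex_mono hW fun x => ?_) ((combA_sq hW hψ f).le.trans (Ex_mono hW fun x => ?_))
    · have he : 0 ≤ ee (isw J h) f i x :=
        mul_nonneg (sub_nonneg.2 (mw_sq_le hW x)) (sq_nonneg _)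
      by_cases hx : Bad J h k x
      · rw [if_pos hx, if_pos ((combA_le x x₀ i).trans_lt (hJ.diam hr hx h0)), one_mul]
      · rw [if_neg hx]
        exact mul_nonneg (by split_ifs <;> norm_num) he
    · by_cases hx : hd (update x i (x₀ i)) x₀ < D
      · rw [if_pos hx, if_pos ((combA_ge x x₀ i).trans hx), one_mul]
      · rw [if_neg hx, zero_mul]
        split_ifs
        exacts [sq_nonneg _, le_rfl]
  · have e : ∀ i, Ex (isw J h) (fun x => if Bad J h k x then ee (isw J h) f i x else 0) = 0 :=
      fun i => by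
        rw [Ex_congr (g := fun _ => 0) fun x => if_neg fun hx => hb ⟨x, hx⟩, Ex_const, zero_mul]
    simp only [e, sum_const_zero, mul_zero]
    exact add_nonneg (sum_nonneg fun i _ => Dir_nonneg hW _)
      (mul_nonneg (by positivity) (Dir_nonneg hW _))

end

end Vale.Agent.P150H
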