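import Vale.Agent.P150H.D

/-! The first order terms of the Bochner formula. Copy the proof of `Good.bochner` (P150/Bochner.lean); the
estimate `pair` is unchanged. Pointwise, with `u i = (1 - m i ^ 2) * dd i f`, `u i ^ 2 = (1 - m i ^ 2) * e i`,
`r i = (m i * u i) ^ 2 + η / 4 * e i`, one has to bound `∑ e - ∑ ∑ J u u - 3 / 5 * ∑ r` from below.
If `x` is not `Bad`: `quad` with `S = {i | k < |lf J h i x|}`; on `S`, `m i ^ 2 ≥ k ^ 2 / 4` (`mw_isw`, `tanh_bounds`,
`tanh` is monotone and odd), so `k ^ 2 / 20 ≤ m i ^ 2 / 5`, and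
`η / 4 + (1 - η) (1 - m²) + m² / 5 + 3 / 5 (m² (1 - m²) + η / 4) ≤ 1`. If `x` is `Bad`: `abs`. -/

namespace Vale.Agent.P150H

open Vale.Agent.P150 Finset Function Real

noncomputable section

variable {ι : Type} [Fintype ι] [DecidableEq ι] {J : ι → ι → ℝ} {h : ι → ℝ} {η k r c : ℝ} {D : ℕ}

lemma pt_mono {a b : ℝ} (h : b ≤ a) : tanh b ≤ tanh a := by
  rw [tanh_eq_sinh_div_cosh, tanh_eq_sinh_div_cosh, div_le_div_iff₀ (cosh_pos _) (cosh_pos _)]
  have := sinh_nonneg_iff.2 (sub_nonneg.2 h)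
  rw [sinh_sub] at this
  linarith

lemma pt_tanh {k a : ℝ} (h0 : 0 < k) (h1 : k ≤ 1 / 2) (h : k < |a|) : k ^ 2 / 4 ≤ tanh a ^ 2 := by
  have h2 : k / 2 ≤ tanh |a| := by
    have := (tanh_bounds h0.le).2.2
    have h3 : k ^ 3 ≤ k / 2 := by nlinarith [mul_pos h0 h0]
    linarith [pt_mono h.le]
  have h4 : tanh |a| ^ 2 = tanh a ^ 2 := by
    rcases abs_choice a with e | e <;> rw [e]
    rw [tanh_neg, neg_sq]
  rw [← h4]
  nlinarith

open Classical in
theorem Nice.pt (hJ : Nice J η k r D) (h : ι → ℝ) (f : (ι → Bool) → ℝ) :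
    η / 4 * Dir (isw J h) f -
      3 * ∑ i, Ex (isw J h) (fun x => if Bad J h k x then ee (isw J h) f i x else 0) ≤
      Ex (isw J h) fun x => (∑ i, Dw (isw J h) i f x) ^ 2 := by
  have hW := isw_pos J h
  have hm := mw_isw hJ.symm hJ.diag h
  set W := isw J h
  obtain ⟨u, hu⟩ : ∃ u : ι → (ι → Bool) → ℝ, ∀ i x, u i x = (1 - mw W i x ^ 2) * dd i f x :=
    ⟨_, fun _ _ => rfl⟩
  obtain ⟨e, he⟩ : ∃ e : ι → (ι → Bool) → ℝ, ∀ i x, e i x = (1 - mw W i x ^ 2) * dd i f x ^ 2 :=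
    ⟨_, fun _ _ => rfl⟩
  have v0 : ∀ i x, 0 ≤ 1 - mw W i x ^ 2 := fun i x => sub_nonneg.2 (mw_sq_le hW x)
  have e0 : ∀ i x, 0 ≤ e i x := fun i x => by rw [he]; exact mul_nonneg (v0 i x) (sq_nonneg _)
  have ue : ∀ i x, u i x ^ 2 = (1 - mw W i x ^ 2) * e i x := fun i x => by rw [hu, he]; ring
  have ue' : ∀ i x, u i x ^ 2 ≤ e i x := fun i x => by
    rw [ue]; exact mul_le_of_le_one_left (e0 i x) (by nlinarith [sq_nonneg (mw W i x)])
  have hη := hJ.pos
  have pair : ∀ i j, Ex W (fun x => (if i = j then e i x else 0) - J i j * u i x * u j x -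
      J i j ^ 2 * ((mw W i x * u i x) ^ 2 + η / 4 * e i x) -
      J i j ^ 2 * ((mw W j x * u j x) ^ 2 + η / 4 * e j x)) ≤
      Ex W fun x => Dw W i f x * Dw W j f x := by
    intro i j
    by_cases hij : i = j
    · subst hij
      rw [Ex_Dw_sq hW]
      exact Ex_mono hW fun x => by simp [hJ.diag, he]
    obtain ⟨t1, t2⟩ := abs_tanh_bounds (J i j)
    have s1 := hJ.small i j
    have h1 := pair_ineq hJ.symm hJ.diag h hij (by linarith [hJ.le]) f
    rw [← sub_nonneg, ← Ex_sub]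
    refine h1.trans (Ex_mono hW fun x => ?_)
    rw [← hu, ← hu, ← he, ← he, if_neg hij]
    have a0 := add_nonneg (e0 i x) (e0 j x)
    have a1 : |J i j| ^ 3 ≤ J i j ^ 2 * (η / 50000) := by
      rw [pow_succ, sq_abs]; exact mul_le_mul_of_nonneg_left s1 (sq_nonneg _)
    have a2 : |tanh (J i j)| ^ 3 ≤ J i j ^ 2 * (η / 50000) :=
      (pow_le_pow_left₀ (abs_nonneg _) t1 3).trans a1
    have a3 : (tanh (J i j) - J i j) * (u i x * u j x) ≤
        J i j ^ 2 * (η / 50000) * (e i x + e j x) := by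
      refine (le_abs_self _).trans ?_
      rw [abs_mul]
      refine mul_le_mul (t2.trans a1) ?_ (abs_nonneg _) (by positivity)
      rw [abs_le]
      constructor <;> nlinarith [ue' i x, ue' j x, sq_nonneg (u i x + u j x),
        sq_nonneg (u i x - u j x), sq_nonneg (u i x), sq_nonneg (u j x)]
    have a4 : tanh (J i j) ^ 2 * (2 * (mw W i x * u i x) * (mw W j x * u j x)) ≤
        J i j ^ 2 * ((mw W i x * u i x) ^ 2 + (mw W j x * u j x) ^ 2) := by
      calc _ ≤ tanh (J i j) ^ 2 * ((mw W i x * u i x) ^ 2 + (mw W j x * u j x) ^ 2) :=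
            mul_le_mul_of_nonneg_left (two_mul_le_add_sq _ _) (sq_nonneg _)
        _ ≤ _ := mul_le_mul_of_nonneg_right (sq_le_sq.2 t1) (by positivity)
    have a5 := mul_le_mul_of_nonneg_right a2 a0
    have a6 : 0 ≤ J i j ^ 2 * η * (e i x + e j x) := by positivity
    linear_combination a3 + a4 + 10000 * a5 + (1 / 4 - 10001 / 50000) * a6
  have e1 : Ex W (fun x => (∑ i, Dw W i f x) ^ 2) =
      ∑ i, ∑ j, Ex W fun x => Dw W i f x * Dw W j f x := by
    simp only [sq, sum_mul_sum, Ex_sum]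
  have e2 : η / 4 * Dir W f - 3 * ∑ i, Ex W (fun x => if Bad J h k x then ee W f i x else 0) =
      Ex W fun x => η / 4 * ∑ i, e i x - 3 * ∑ i, if Bad J h k x then e i x else 0 := by
    simp only [Dir, Ex_Dw_sq hW, Ex_mul, Ex_sum, Ex_sub, he, ee]
  rw [e1, e2]
  refine le_trans ?_ (sum_le_sum fun i _ => sum_le_sum fun j _ => pair i j)
  simp only [← Ex_sum]
  refine Ex_mono hW fun x => ?_
  obtain ⟨ρ, hr⟩ : ∃ ρ : ι → ℝ, ∀ i, ρ i = (mw W i x * u i x) ^ 2 + η / 4 * e i x :=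
    ⟨_, fun _ => rfl⟩
  have r0 : ∀ i, 0 ≤ ρ i := fun i => by rw [hr]; have := e0 i x; positivity
  have b2 : ∑ i, ∑ j, J i j ^ 2 * ρ i ≤ ∑ i, 3 / 10 * ρ i := sum_le_sum fun i _ => by
    rw [← sum_mul]; exact mul_le_mul_of_nonneg_right (hJ.row i) (r0 i)
  have b3 : ∑ i, ∑ j, J i j ^ 2 * ρ j ≤ ∑ i, 3 / 10 * ρ i := by
    rw [sum_comm]
    simpa only [hJ.symm] using b2
  have c2 := hJ.le
  simp only [← hr, sum_sub_distrib, sum_ite_eq, mem_univ, if_true]
  by_cases hB : Bad J h k x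
  · have b1 := (le_abs_self _).trans (hJ.abs fun i => u i x)
    have b4 : ∑ i, (η / 4 * e i x + 2 * u i x ^ 2 + 3 / 5 * ρ i) ≤ ∑ i, 4 * e i x :=
      sum_le_sum fun i _ => by
        have c1 : (mw W i x * u i x) ^ 2 ≤ e i x := by
          rw [mul_pow]
          exact (mul_le_of_le_one_left (sq_nonneg _) (by linarith [v0 i x])).trans (ue' i x)
        rw [hr]
        nlinarith [ue' i x, e0 i x]
    simp only [if_pos hB]
    simp only [sum_add_distrib, ← mul_sum] at b2 b3 b4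
    linarith
  · have b1 := hJ.quad _ (not_lt.1 hB) fun i => u i x
    rw [sum_filter] at b1
    have b4 : ∑ i, (η / 4 * e i x + (1 - η) * u i x ^ 2 +
        k ^ 2 / 20 * (if k < |lf J h i x| then u i x ^ 2 else 0) + 3 / 5 * ρ i) ≤ ∑ i, e i x :=
      sum_le_sum fun i _ => by
        have c4 : k ^ 2 / 20 * (if k < |lf J h i x| then u i x ^ 2 else 0) ≤
            mw W i x ^ 2 / 5 * e i x := by
          have := e0 i x
          split_ifs with hk
          · refine mul_le_mul ?_ (ue' i x) (sq_nonneg _) (by positivity)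
            rw [hm]
            linarith [pt_tanh hJ.kpos hJ.kle hk]
          · rw [mul_zero]
            positivity
        rw [hr, mul_pow, ue]
        have c3 : η / 4 + (1 - η) * (1 - mw W i x ^ 2) + mw W i x ^ 2 / 5 +
            3 / 5 * (mw W i x ^ 2 * (1 - mw W i x ^ 2) + η / 4) ≤ 1 := by
          nlinarith [sq_nonneg (mw W i x ^ 2), sq_nonneg (mw W i x)]
        rw [ue] at c4
        nlinarith [mul_le_mul_of_nonneg_right c3 (e0 i x)]
    simp only [if_neg hB, sum_const_zero]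
    simp only [sum_add_distrib, ← mul_sum] at b2 b3 b4
    linarith

end

end Vale.Agent.P150H
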