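import Vale.Agent.P150H.Hess
import Vale.Agent.P150H.Pt
import Vale.Agent.P150H.CombA

/-! The Poincare inequality.
`diam`: more than half of the sites have `|lf| ≤ k` for both configurations, there the difference is at most `2 k ≤ r`; `sep`.
`bad_le`: if no configuration is `Bad` the left side is zero. Else fix a `Bad` `x₀`; `ψ x = if hd (update x i (x₀ i)) x₀ < D then 1 else 0`
is `Ind i`, at least the indicator of `Bad` (`diam`) and at most the indicator of `hd x x₀ ≤ D`;
`E ψ * ee W f i = E ψ * (Dw W i f) ^ 2` (as `Ex_Dw_sq`, or `Ex_mul_Qw`); `lyap` for `φ = Dw W i f`.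
`bochner`: `X ≥ η / 4 Dir - 3 Bad`, `H ≤ 2 X + 20 Dir`, `big`, `tap`: `(1 + 600 / N) X ≥ η / 8 Dir`.
`smul`: as `Good.smul`. `poi`: for `s ≤ 9 / 10` the matrix `s J` is `Good` with `η` (`quad` for `S = univ`), else
`smul` and `2 k ≤ s * (3 k)`; `poincare_of_bochner`. -/

namespace Vale.Agent.P150H

open Vale.Agent.P150 Finset Function Real

noncomputable section

variable {ι : Type} [Fintype ι] [DecidableEq ι] {J : ι → ι → ℝ} {h : ι → ℝ} {η k r c : ℝ} {D : ℕ}

theorem comb_ar {η N T X B H E : ℝ} (h0 : 0 < η) (h1 : η ≤ 1 / 20) (hN : 100000 ≤ η * N)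
    (hT : 4800 * T ≤ η) (hX : 0 ≤ X) (hE : 0 ≤ E) (a1 : η / 4 * E - 3 * B ≤ X)
    (a2 : N / 100 * B ≤ H + N * T * E) (a3 : H / 2 - 10 * E ≤ X) : η / 16 * E ≤ X := by
  have n0 : 0 < N := pos_of_mul_pos_right (by linarith : 0 < η * N) h0.le
  have n1 : 600 ≤ N := by nlinarith
  have b1 := mul_le_mul_of_nonneg_left a1 n0.le
  have b2 := mul_le_mul_of_nonneg_right hN hE
  have b3 := mul_le_mul_of_nonneg_right hT (mul_nonneg n0.le hE)
  have b4 := mul_le_mul_of_nonneg_right n1 hX
  have b5 := mul_nonneg (mul_nonneg h0.le n0.le) hE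
  refine le_of_mul_le_mul_left ?_ n0
  linarith

theorem Nice.bochner (hJ : Nice J η k r D) (hr : 2 * k ≤ r) (h : ι → ℝ) (f : (ι → Bool) → ℝ) :
    η / 16 * Dir (isw J h) f ≤ Ex (isw J h) fun x => (∑ i, Dw (isw J h) i f x) ^ 2 :=
  comb_ar hJ.pos hJ.le hJ.big hJ.tap (Ex_nonneg (isw_pos J h) fun _ => sq_nonneg _)
    (sum_nonneg fun _ _ => Ex_nonneg (isw_pos J h) fun _ => mul_self_nonneg _) (hJ.pt h f)
    (hJ.bad_le hr h f) (hJ.hess h f)

theorem comb_pull (s : ℝ) (u : ι → ℝ) :
    ∑ i, ∑ j, s * J i j * u i * u j = s * ∑ i, ∑ j, J i j * u i * u j := by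
  simp only [mul_assoc, mul_sum]

theorem Nice.smul (hJ : Nice J η k r D) {s : ℝ} (h0 : 0 < s) (h1 : s ≤ 1) :
    Nice (fun i j => s * J i j) η k (s * r) D where
  pos := hJ.pos
  le := hJ.le
  kpos := hJ.kpos
  kle := hJ.kle
  symm i j := by rw [hJ.symm]
  diag i := by rw [hJ.diag, mul_zero]
  row i := by
    simp only [mul_pow, ← mul_sum]
    exact (mul_le_of_le_one_left (sum_nonneg fun _ _ => sq_nonneg _) (pow_le_one₀ h0.le h1)).trans
      (hJ.row i)
  small i j := by
    rw [abs_mul, abs_of_pos h0]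
    exact (mul_le_of_le_one_left (abs_nonneg _) h1).trans (hJ.small i j)
  abs u := by
    rw [comb_pull, abs_mul, abs_of_pos h0]
    exact (mul_le_of_le_one_left (abs_nonneg _) h1).trans (hJ.abs u)
  quad S hS u := by
    rw [comb_pull]
    refine (mul_le_mul_of_nonneg_left (hJ.quad S hS u) h0.le).trans (mul_le_of_le_one_left ?_ h1)
    exact add_nonneg (mul_nonneg (by linarith [hJ.le]) (sum_nonneg fun _ _ => sq_nonneg _))
      (mul_nonneg (by positivity) (sum_nonneg fun _ _ => sq_nonneg _))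
  sep x y hxy := by
    simpa only [mul_assoc, ← mul_sum, abs_mul, abs_of_pos h0, mul_le_mul_iff_right₀ h0] using
      hJ.sep x y hxy
  size := hJ.size
  big := hJ.big
  tap := hJ.tap

theorem comb_good (hJ : Nice J η k r D) {s : ℝ} (h0 : 0 ≤ s) (h1 : s ≤ 9 / 10) :
    Good (fun i j => s * J i j) η where
  pos := hJ.pos
  le := by linarith [hJ.le]
  symm i j := by rw [hJ.symm]
  diag i := by rw [hJ.diag, mul_zero]
  quad u := by
    rw [comb_pull]
    have a0 : 0 ≤ ∑ i, u i ^ 2 := sum_nonneg fun _ _ => sq_nonneg _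
    have a1 := mul_le_mul_of_nonneg_left (hJ.quad univ (by rw [card_univ]; omega) u) h0
    have a2 : k ^ 2 ≤ 1 / 4 := by nlinarith [hJ.kpos, hJ.kle]
    have a3 : s * (1 - η + k ^ 2 / 20) ≤ 1 - η := by
      have := mul_le_mul_of_nonneg_right h1
        (show 0 ≤ 1 - η + k ^ 2 / 20 by linarith [hJ.le, sq_nonneg k])
      linarith [hJ.le]
    linarith [mul_le_mul_of_nonneg_right a3 a0]
  row i := by
    simp only [mul_pow, ← mul_sum]
    exact (mul_le_of_le_one_left (sum_nonneg fun _ _ => sq_nonneg _)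
      (pow_le_one₀ h0 (by linarith))).trans ((hJ.row i).trans (by norm_num))
  small i j := by
    rw [abs_mul, abs_of_nonneg h0]
    exact (mul_le_of_le_one_left (abs_nonneg _) (by linarith)).trans (hJ.small i j)

theorem Nice.poi (hJ : Nice J η k (3 * k) D) : Poi J (η / 8) where
  pos := by linarith [hJ.pos]
  le := by linarith [hJ.le]
  symm := hJ.symm
  diag := hJ.diag
  abs := hJ.abs
  poi s h0 h1 h g hg := by
    have hη := hJ.pos
    rcases le_total s (9 / 10) with hs | hs
    · refine le_trans ?_ ((comb_good hJ h0 hs).poincare h hg)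
      exact mul_le_mul_of_nonneg_right (by linarith) (Ex_nonneg (isw_pos _ h) fun _ => sq_nonneg _)
    · rw [show η / 8 / 2 = η / 16 by ring]
      exact poincare_of_bochner (isw_pos _ h) (by linarith)
        ((hJ.smul (by linarith) h1).bochner (by nlinarith [hJ.kpos]) h) hg

end

end Vale.Agent.P150H
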