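import Vale.Agent.P150.Final

/-! P150, beyond one half: definitions. FROZEN. -/

namespace Vale.Agent.P150H

open Vale.Agent.P150 Finset Function Real

noncomputable section

variable {ι : Type} [Fintype ι] [DecidableEq ι] {J : ι → ι → ℝ} {h : ι → ℝ} {η k r c : ℝ} {D : ℕ}

/-- The local field. -/
def lf (J : ι → ι → ℝ) (h : ι → ℝ) (i : ι) (x : ι → Bool) : ℝ := h i + ∑ j, J i j * spin (x j)

/-- The Hamming distance. -/
def hd (x y : ι → Bool) : ℕ := (univ.filter fun i => x i ≠ y i).card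

/-- Configurations with few large fields. -/
def Bad (J : ι → ι → ℝ) (h : ι → ℝ) (k : ℝ) (x : ι → Bool) : Prop :=
  4 * (univ.filter fun i => k < |lf J h i x|).card < Fintype.card ι

/-- The hypotheses on the interaction matrix. -/
structure Nice (J : ι → ι → ℝ) (η k r : ℝ) (D : ℕ) : Prop where
  pos : 0 < η
  le : η ≤ 1 / 20
  kpos : 0 < k
  kle : k ≤ 1 / 2
  symm : ∀ i j, J i j = J j i
  diag : ∀ i, J i i = 0
  row : ∀ i, ∑ j, J i j ^ 2 ≤ 3 / 10
  small : ∀ i j, |J i j| ≤ η / 50000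
  abs : ∀ u : ι → ℝ, |∑ i, ∑ j, J i j * u i * u j| ≤ 2 * ∑ i, u i ^ 2
  quad : ∀ S : Finset ι, Fintype.card ι ≤ 4 * S.card → ∀ u : ι → ℝ,
    ∑ i, ∑ j, J i j * u i * u j ≤ (1 - η) * ∑ i, u i ^ 2 + k ^ 2 / 20 * ∑ i ∈ S, u i ^ 2
  sep : ∀ x y : ι → Bool, D ≤ hd x y →
    2 * (univ.filter fun i => |∑ j, J i j * (spin (x j) - spin (y j))| ≤ r).card < Fintype.card ι
  size : 1000 * D ≤ Fintype.card ι
  big : 100000 ≤ η * Fintype.card ι
  tap : 4800 * (1 / 2 : ℝ) ^ D ≤ η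

/-- Poincare inequalities along the ray, uniformly in the field. -/
structure Poi (J : ι → ι → ℝ) (c : ℝ) : Prop where
  pos : 0 < c
  le : c ≤ 1
  symm : ∀ i j, J i j = J j i
  diag : ∀ i, J i i = 0
  abs : ∀ u : ι → ℝ, |∑ i, ∑ j, J i j * u i * u j| ≤ 2 * ∑ i, u i ^ 2
  poi : ∀ s : ℝ, 0 ≤ s → s ≤ 1 → ∀ (h : ι → ℝ) (g : (ι → Bool) → ℝ),
    Ex (isw (fun i j => s * J i j) h) g = 0 →
    c / 2 * Ex (isw (fun i j => s * J i j) h) (fun x => g x ^ 2) ≤
      Dir (isw (fun i j => s * J i j) h) g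

/-- The local energy. -/
def ee (W : (ι → Bool) → ℝ) (f : (ι → Bool) → ℝ) (i : ι) (x : ι → Bool) : ℝ :=
  (1 - mw W i x ^ 2) * dd i f x ^ 2

theorem mw_isw (hs : ∀ i j, J i j = J j i) (hd : ∀ i, J i i = 0) (h : ι → ℝ) (i : ι)
    (x : ι → Bool) : mw (isw J h) i x = tanh (lf J h i x) := by
  obtain ⟨c, hc⟩ := en_update hs hd h x i
  have h1 := exp_pos (lf J h i x)
  have h2 := exp_pos (-lf J h i x)
  have h3 := exp_pos c
  simp only [mw, isw, hc, spin_true, spin_false, one_mul, neg_mul]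
  change (exp (c + lf J h i x) - exp (c + -lf J h i x)) /
    (exp (c + lf J h i x) + exp (c + -lf J h i x)) = _
  rw [exp_add, exp_add, tanh_eq_sinh_div_cosh, sinh_eq, cosh_eq]
  field_simp

end

end Vale.Agent.P150H
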