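import Vale.Agent.P150H.Ten

/-! Copy `Good.var_le`, `Good.gap`, `Good.tv` (P150/Det.lean); use `hJ.poi 1` (`one_mul`), `Poi.at`; in `tv` the energy
differences are at most `2 n`, so `L = 3 * n`, `√(3 n) ≤ n`. -/

namespace Vale.Agent.P150H

open Vale.Agent.P150 Finset Function Real

noncomputable section

variable {n : ℕ} {β c : ℝ} {g : Pair n → ℝ}

theorem Poi.var_le (hJ : Poi (Jm β g) c) (f : Conf n → ℝ) : c / 2 * var β g f ≤ form β g f := by
  have hW := isw_pos (Jm β g) fun _ => 0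
  have h0 := hJ.poi 1 zero_le_one le_rfl fun _ => 0
  simp only [one_mul] at h0
  have h1 := h0 (fun x => f x - av (isw (Jm β g) fun _ => 0) f)
    (by rw [Ex_sub, Ex_const, Ex_eq_av hW, sub_self])
  rw [var_eq, form_eq, ← mul_div_assoc, ← Dir_sub _ hW f]
  exact div_le_div_of_nonneg_right h1 (sumW_pos hW).le

theorem Poi.gap (hJ : Poi (Jm β g) c) (hn : 0 < n) : c / 2 ≤ gap β g ∧ gap β g ≤ 1 := by
  have h1 : ∀ r ∈ {r : ℝ | ∃ f : Conf n → ℝ, var β g f ≠ 0 ∧ r = form β g f / var β g f},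
      c / 2 ≤ r := by
    rintro r ⟨f, hf, rfl⟩
    have hW := isw_pos (Jm β g) fun _ => 0
    have : 0 ≤ var β g f := by
      rw [var_eq]; exact div_nonneg (Ex_nonneg hW fun _ => sq_nonneg _) (sumW_pos hW).le
    exact (le_div_iff₀ (this.lt_of_ne' hf)).2 (hJ.var_le f)
  have h2 : form β g (fun x => spin (x ⟨0, hn⟩)) ∈
      {r : ℝ | ∃ f : Conf n → ℝ, var β g f ≠ 0 ∧ r = form β g f / var β g f} :=
    ⟨fun x => spin (x ⟨0, hn⟩), by rw [var_spin]; exact one_ne_zero, by rw [var_spin, div_one]⟩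
  exact ⟨le_csInf ⟨_, h2⟩ h1, (csInf_le ⟨_, h1⟩ h2).trans (form_spin _)⟩

theorem Poi.tv (hJ : Poi (Jm β g) c) (hn : 4 ≤ n) {t : ℝ}
    (ht : 20 * exp (64 / c + 1) * log n ≤ t) (x : Conf n) : tv β g t x ≤ 1 / 4 := by
  have : Nonempty (Fin n) := ⟨⟨0, by omega⟩⟩
  have hW := isw_pos (Jm β g) fun _ => 0
  have hη := hJ.pos
  have hn4 : (4 : ℝ) ≤ n := by exact_mod_cast hn
  have hn' : (2 : ℝ) ≤ n := by linarith
  have hA : 1 ≤ exp (64 / c + 1) := one_le_exp (by positivity)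
  have hlog : log 2 ≤ log n := log_le_log two_pos hn'
  have hl2 := log_two_gt_d9
  have h1 := hJ.at fun _ => 0
  have e1 : ∀ y : Conf n, ∑ i, spin (y i) ^ 2 = n := fun y => by simp [spin_sq]
  have h2 : log ((∑ y, isw (Jm β g) (fun _ => 0) y) / isw (Jm β g) (fun _ => 0) x) ≤ 3 * n := by
    rw [log_le_iff_le_exp (div_pos (sumW_pos hW) (hW x)), div_le_iff₀ (hW x)]
    have a1 : ∀ y, isw (Jm β g) (fun _ => 0) y ≤
        exp (2 * n) * isw (Jm β g) (fun _ => 0) x := fun y => by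
      have b1 := (abs_le.1 (hJ.abs fun i => spin (y i))).2
      have b2 := (abs_le.1 (hJ.abs fun i => spin (x i))).1
      rw [e1] at b1 b2
      simp only [isw, en, ← exp_add, exp_le_exp, zero_mul, sum_const_zero]
      nlinarith
    refine (sum_le_sum fun y _ => a1 y).trans ?_
    rw [sum_const, card_univ, Fintype.card_fun, Fintype.card_bool, Fintype.card_fin, nsmul_eq_mul,
      show (3 : ℝ) * n = n + 2 * n by ring, exp_add, mul_assoc]
    refine mul_le_mul_of_nonneg_right ?_ (by have := hW x; positivity)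
    rw [← mul_one (n : ℝ), exp_nat_mul]
    push_cast
    exact pow_le_pow_left₀ two_pos.le (by linarith [add_one_le_exp (1 : ℝ)]) n
  have h3 := tv_le hW hA h1 x h2 heat_mulVec (t := t) (le_trans (by
    have := log_nonneg (by linarith : (1 : ℝ) ≤ n); positivity) ht)
  simp only [← gibbs_eq] at h3
  have h4 : exp (-(t / (2 * exp (64 / c + 1)))) ≤ 1 / (n : ℝ) ^ 10 := by
    rw [one_div, ← exp_log (by positivity : (0 : ℝ) < n ^ 10), ← exp_neg, exp_le_exp, neg_le_neg_iff,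
      log_pow, le_div_iff₀ (by positivity)]
    push_cast
    linarith
  have h5 : √(3 * n) ≤ n := sqrt_le_iff.2 ⟨by positivity, by nlinarith⟩
  have h6 : 4 * (n : ℝ) * (1 / n ^ 10) ≤ 1 / 2 := by
    rw [mul_one_div, div_le_iff₀ (by positivity), pow_succ]
    have := pow_le_pow_left₀ two_pos.le hn' 9
    nlinarith
  have h7 := mul_le_mul (mul_le_mul_of_nonneg_left h5 (by norm_num : (0 : ℝ) ≤ 4)) h4
    (exp_pos _).le (by positivity)
  unfold P150.tv kern gen
  linarith

end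

end Vale.Agent.P150H
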