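import Vale.Agent.P150H.Ball

/-! Separation. Union bound (`union_le`) over `(x, y, S)`, at most `8 ^ n` triples, `S` the set of the small sites,
`n ≤ 2 * S.card`. For a fixed triple: `z j = spin (x j) - spin (y j)`, `∑ z j ^ 2 = 4 * hd x y`, `κ = S`,
`a p i = (if p.1.1 = i then z p.1.2 else 0) + (if p.1.2 = i then z p.1.1 else 0)`, so `∑ p, a p i * g p = ∑ j, gsym g i j * z j`
(`sum_pairs`). With `θ` extended by zero, `∑ p, (θ p.1.1 * z p.1.2 + θ p.1.2 * z p.1.1) ^ 2 =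
|θ|² |z|² + (θ · z)² - 2 ∑ θ i ² z i ² ≥ (4 D - 8) |θ|² ≥ n / 1000 * |θ|²` (`sum_pairs`). `small_ball` with
`ρ = 36 / 10 ^ 12 * n * S.card`, `l = 10 ^ 12 / (36 n)`: the bound is `(exp 1 / √(1 + 10 ^ 9 / 18)) ^ S.card ≤ (1 / 256) ^ S.card ≤ (1 / 16) ^ n`. -/

namespace Vale.Agent.P150H

open Vale.Agent.P150 Finset Function Real MeasureTheory ProbabilityTheory Filter Topology

noncomputable section

/-- The separation property. -/
def Sepa {n : ℕ} (g : Pair n → ℝ) : Prop := ∀ x y : Fin n → Bool, n / 1000 ≤ hd x y →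
  2 * (univ.filter fun i => |∑ j, gsym g i j * (spin (x j) - spin (y j))| ≤ 6 / 10 ^ 6 * √n).card < n

/-- The coefficients of the linear forms. -/
def sepA {n : ℕ} (z : Fin n → ℝ) (p : Pair n) (i : Fin n) : ℝ :=
  (if p.1.1 = i then z p.1.2 else 0) + (if p.1.2 = i then z p.1.1 else 0)

lemma sepA_sum {n : ℕ} (z : Fin n → ℝ) (g : Pair n → ℝ) (i : Fin n) :
    ∑ p, sepA z p i * g p = ∑ j, gsym g i j * z j := by
  have h := sum_pairs (fun u v => if u = i then gsym g u v * z v else 0) fun u => by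
    simp [gsym_diag]
  have h1 : ∑ u, ∑ v, (if u = i then gsym g u v * z v else 0) = ∑ j, gsym g i j * z j := by
    rw [sum_eq_single i]
    · simp
    · intro u _ hu
      simp [hu]
    · simp
  rw [← h1, h]
  refine sum_congr rfl fun p _ => ?_
  rw [gsym_symm g p.1.2 p.1.1, gsym_pair, sepA]
  split_ifs <;> ring

lemma sep_quad {n : ℕ} (z θ : Fin n → ℝ) (hz : ∀ j, z j ^ 2 ≤ 4) :
    (∑ j, z j ^ 2 - 8) * ∑ i, θ i ^ 2 ≤
      ∑ p : Pair n, (θ p.1.1 * z p.1.2 + θ p.1.2 * z p.1.1) ^ 2 := by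
  have h := sum_pairs (fun i j => θ i ^ 2 * z j ^ 2 + (θ i * z i) * (θ j * z j) -
    if i = j then 2 * (θ i ^ 2 * z i ^ 2) else 0) fun i => by rw [if_pos rfl]; ring
  have h1 : ∑ p : Pair n, (θ p.1.1 * z p.1.2 + θ p.1.2 * z p.1.1) ^ 2 =
      (∑ i, θ i ^ 2) * (∑ j, z j ^ 2) + (∑ i, θ i * z i) * (∑ j, θ j * z j) -
        ∑ i, 2 * (θ i ^ 2 * z i ^ 2) := by
    rw [sum_mul_sum, sum_mul_sum]
    simp only [sum_sub_distrib, sum_add_distrib, sum_ite_eq, mem_univ, if_true] at h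
    rw [h]
    simp only [← sum_sub_distrib, ← sum_add_distrib]
    refine sum_congr rfl fun p _ => ?_
    rw [if_neg p.2.ne, if_neg p.2.ne']
    ring
  have h2 : ∑ i, 2 * (θ i ^ 2 * z i ^ 2) ≤ 8 * ∑ i, θ i ^ 2 := by
    rw [mul_sum]
    exact sum_le_sum fun i _ => by nlinarith [sq_nonneg (θ i), hz i]
  rw [h1]
  nlinarith [mul_self_nonneg (∑ i, θ i * z i)]

lemma sep_z {n : ℕ} (x y : Fin n → Bool) :
    ∑ j, (spin (x j) - spin (y j)) ^ 2 = 4 * (hd x y : ℝ) := by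
  rw [hd, card_filter, Nat.cast_sum, mul_sum]
  refine sum_congr rfl fun j _ => ?_
  cases x j <;> cases y j <;> simp <;> norm_num

lemma sep_one {n : ℕ} (hn : 4000 ≤ n) (x y : Fin n → Bool) (S : Finset (Fin n))
    (hD : n / 1000 ≤ hd x y) (hS : n ≤ 2 * S.card) :
    gm (Pair n) {g | ∀ i ∈ S, |∑ j, gsym g i j * (spin (x j) - spin (y j))| ≤ 6 / 10 ^ 6 * √n} ≤
      ENNReal.ofReal ((1 / 16) ^ n) := by
  set z : Fin n → ℝ := fun j => spin (x j) - spin (y j) with hz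
  have hn' : (0 : ℝ) < n := by exact_mod_cast (by omega : 0 < n)
  have hz4 : ∀ j, z j ^ 2 ≤ 4 := fun j => by
    simp only [hz]
    cases x j <;> cases y j <;> simp <;> norm_num
  have hσ : (n : ℝ) / 1000 ≤ ∑ j, z j ^ 2 - 8 := by
    rw [sep_z]
    have : n + 8000 ≤ 4000 * hd x y := by omega
    have : (n : ℝ) + 8000 ≤ 4000 * (hd x y : ℝ) := by exact_mod_cast this
    linarith
  have hb := small_ball (κ := S) (fun p i => sepA z p i.1) (σ := n / 1000) (l := 10 ^ 12 / (36 * n))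
    (by positivity) (by positivity) (fun θ => by
      set θ' : Fin n → ℝ := fun i => if h : i ∈ S then θ ⟨i, h⟩ else 0 with hθ
      have e : ∀ F : Fin n → ℝ, ∑ i : S, θ i * F i = ∑ i, θ' i * F i := fun F => by
        rw [← sum_subset (subset_univ S) (fun i _ hi => by simp [hθ, hi]), ← sum_coe_sort S]
        exact sum_congr rfl fun i _ => by simp [hθ, i.2]
      have e1 : ∑ i : S, θ i ^ 2 = ∑ i, θ' i ^ 2 := by
        have := e θ'
        simp only [sq]
        rw [← this]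
        exact sum_congr rfl fun i _ => by simp [hθ, i.2]
      have e2 : ∀ p : Pair n, ∑ i : S, θ i * sepA z p i.1 =
          θ' p.1.1 * z p.1.2 + θ' p.1.2 * z p.1.1 := fun p => by
        rw [e fun i => sepA z p i]
        simp [sepA, mul_add, sum_add_distrib]
      simp only [e1, e2]
      exact (mul_le_mul_of_nonneg_right hσ (sum_nonneg fun _ _ => sq_nonneg _)).trans
        (sep_quad z θ' hz4)) (36 / 10 ^ 12 * n * S.card)
  refine le_trans (measure_mono fun g hg => ?_) (hb.trans (ENNReal.ofReal_le_ofReal ?_))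
  · simp only [Set.mem_setOf_eq, sepA_sum] at hg ⊢
    have : ∀ i : S, (∑ j, gsym g i j * z j) ^ 2 ≤ 36 / 10 ^ 12 * n := fun i => by
      have h1 := hg i.1 i.2
      have h2 := pow_le_pow_left₀ (abs_nonneg _) h1 2
      rw [sq_abs, mul_pow, sq_sqrt hn'.le] at h2
      refine h2.trans_eq ?_
      norm_num
    refine (sum_le_sum fun i _ => this i).trans_eq ?_
    simp [mul_comm]
  · have e1 : 10 ^ 12 / (36 * (n : ℝ)) * (36 / 10 ^ 12 * n * S.card) = (S.card : ℕ) * 1 := by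
      field_simp
    have e2 : 1 + 2 * (10 ^ 12 / (36 * (n : ℝ))) * (n / 1000) = 1 + 10 ^ 9 / 18 := by
      field_simp
      norm_num
    rw [e1, e2, exp_nat_mul, Fintype.card_coe, ← mul_pow]
    have h1 : (768 : ℝ) ≤ √(1 + 10 ^ 9 / 18) := le_sqrt_of_sq_le (by norm_num)
    have h2 : exp 1 * (√(1 + 10 ^ 9 / 18))⁻¹ ≤ (1 / 16) ^ 2 := by
      have h3 : exp 1 ≤ 3 := (exp_one_lt_d9.trans (by norm_num)).le
      have h4 : (√(1 + 10 ^ 9 / 18))⁻¹ ≤ (768 : ℝ)⁻¹ := inv_anti₀ (by norm_num) h1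
      refine (mul_le_mul h3 h4 (by positivity) (by norm_num)).trans ?_
      norm_num
    refine (pow_le_pow_left₀ (by positivity) h2 _).trans ?_
    rw [← pow_mul]
    exact pow_le_pow_of_le_one (by norm_num) (by norm_num) hS

theorem sep_le {n : ℕ} (hn : 4000 ≤ n) :
    gm (Pair n) {g | ¬ Sepa g} ≤ ENNReal.ofReal ((1 / 2) ^ n) := by
  have h := union_le (κ := (Fin n → Bool) × (Fin n → Bool) × Finset (Fin n)) (gm (Pair n))
    (s := fun k g => n / 1000 ≤ hd k.1 k.2.1 ∧ n ≤ 2 * k.2.2.card ∧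
      ∀ i ∈ k.2.2, |∑ j, gsym g i j * (spin (k.1 j) - spin (k.2.1 j))| ≤ 6 / 10 ^ 6 * √n)
    (b := ENNReal.ofReal ((1 / 16) ^ n)) fun k => by
      by_cases hk : n / 1000 ≤ hd k.1 k.2.1 ∧ n ≤ 2 * k.2.2.card
      · exact le_trans (measure_mono fun g hg => hg.2.2) (sep_one hn k.1 k.2.1 k.2.2 hk.1 hk.2)
      · refine le_trans (measure_mono (t := ∅) fun g hg => hk ⟨hg.1, hg.2.1⟩) ?_
        simp
  refine le_trans (measure_mono fun g hg => ?_) (h.trans_eq ?_)
  · simp only [Sepa, Set.mem_setOf_eq, not_forall, not_lt] at hg ⊢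
    obtain ⟨x, y, hD, hS⟩ := hg
    exact ⟨(x, y, _), hD, hS, fun i hi => (mem_filter.1 hi).2⟩
  · simp only [Fintype.card_prod, Fintype.card_fun, Fintype.card_bool, Fintype.card_fin,
      Fintype.card_finset]
    rw [← ENNReal.ofReal_natCast, ← ENNReal.ofReal_mul (Nat.cast_nonneg _)]
    congr 1
    push_cast
    rw [← mul_pow, ← mul_pow, ← mul_pow]
    norm_num

end

end Vale.Agent.P150H
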