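import Vale.Agent.P150H.TopA

/-! The top of the spectrum: from finitely many unit vectors to all vectors. A sequence dense in the unit sphere;
the bad event is contained in the increasing union of the events for the initial segments of the sequence. -/

namespace Vale.Agent.P150H

open Vale.Agent.P150 Finset Function Real MeasureTheory ProbabilityTheory Filter Topology

noncomputable section

/-- Homogeneity: a violating vector can be normalised. -/
theorem top_unit {n : ℕ} (a : Fin n → Fin n → ℝ) (S : Finset (Fin n)) (q c κ : ℝ) (u : Fin n → ℝ)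
    (h : q * (c * ∑ i, u i ^ 2 + κ * ∑ i ∈ S, u i ^ 2) < ∑ i, ∑ j, a i j * u i * u j) :
    ∃ w : Fin n → ℝ, ∑ i, w i ^ 2 = 1 ∧
      q * (c + κ * ∑ i ∈ S, w i ^ 2) < ∑ i, ∑ j, a i j * w i * w j := by
  have h0 : 0 ≤ ∑ i, u i ^ 2 := Finset.sum_nonneg fun i _ => sq_nonneg _
  rcases h0.eq_or_lt with hz | hp
  · exfalso
    have hu : ∀ i, u i = 0 := fun i => by
      have := (Finset.sum_eq_zero_iff_of_nonneg (fun i _ => sq_nonneg (u i))).1 hz.symm i (mem_univ i)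
      exact pow_eq_zero_iff (two_ne_zero) |>.1 this
    simp [hu] at h
  · obtain ⟨t, ht, ht2⟩ : ∃ t : ℝ, 0 < t ∧ t ^ 2 * ∑ i, u i ^ 2 = 1 := by
      refine ⟨(√(∑ i, u i ^ 2))⁻¹, inv_pos.2 (Real.sqrt_pos.2 hp), ?_⟩
      rw [inv_pow, Real.sq_sqrt h0, inv_mul_cancel₀ hp.ne']
    have e1 : ∀ T : Finset (Fin n), ∑ i ∈ T, (t * u i) ^ 2 = t ^ 2 * ∑ i ∈ T, u i ^ 2 := fun T => by
      rw [Finset.mul_sum]
      exact Finset.sum_congr rfl fun i _ => by ring
    have e2 : ∑ i, ∑ j, a i j * (t * u i) * (t * u j) = t ^ 2 * ∑ i, ∑ j, a i j * u i * u j := by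
      rw [Finset.mul_sum]
      refine Finset.sum_congr rfl fun i _ => ?_
      rw [Finset.mul_sum]
      exact Finset.sum_congr rfl fun j _ => by ring
    refine ⟨fun i => t * u i, by rw [e1, ht2], ?_⟩
    rw [e1, e2]
    have h3 := mul_lt_mul_of_pos_left h (pow_pos ht 2)
    have h4 : t ^ 2 * (q * (c * ∑ i, u i ^ 2 + κ * ∑ i ∈ S, u i ^ 2)) =
        q * (c * (t ^ 2 * ∑ i, u i ^ 2) + κ * (t ^ 2 * ∑ i ∈ S, u i ^ 2)) := by ring
    rw [h4, ht2, mul_one] at h3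
    exact h3

theorem top_le {n : ℕ} (hn : 0 < n) {ε κ : ℝ} (e0 : 0 < ε) (e1 : ε ≤ 1) (h0 : 0 ≤ κ) (h1 : κ ≤ 1) :
    gm (Pair n) {g | ¬ Topb ε κ g} ≤ (n + 2) * tl ε n + ENNReal.ofReal ((1 / 2) ^ n) := by
  classical
  let Sph := {u : Fin n → ℝ // ∑ i, u i ^ 2 = 1}
  have hne : Nonempty Sph := ⟨⟨Pi.single ⟨0, hn⟩ 1, by
    rw [Finset.sum_eq_single ⟨0, hn⟩]
    · simp
    · intro b _ hb
      simp [hb]
    · simp⟩⟩
  obtain ⟨v, hv⟩ := TopologicalSpace.exists_dense_seq Sph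
  let A : ℕ → Set (Pair n → ℝ) := fun M =>
    {g | ∃ s : {T : Finset (Fin n) // n ≤ 4 * T.card} × Fin M,
      √n * (2 + 5 * ε - κ / (4 * 10 ^ 9) + κ * ∑ i ∈ s.1.1, (v s.2).1 i ^ 2) <
      ∑ i, ∑ j, gsym g i j * (v s.2).1 i * (v s.2).1 j}
  have hm : Monotone A := by
    intro M M' hM g hg
    obtain ⟨⟨T, m⟩, hs⟩ := hg
    exact ⟨⟨T, Fin.castLE hM m⟩, hs⟩
  have hA : ∀ M, gm (Pair n) (A M) ≤ (n + 2) * tl ε n + ENNReal.ofReal ((1 / 2) ^ n) := fun M =>
    top_fin hn e0 e1 h0 h1 (S := {T : Finset (Fin n) // n ≤ 4 * T.card} × Fin M)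
      (fun s => (v s.2).1) (fun s => (v s.2).2) (fun s => s.1.1) (fun s => s.1.2)
  have hsub : {g | ¬ Topb ε κ g} ⊆ ⋃ M, A M := by
    intro g hg
    simp only [Topb, Set.mem_ofPred_eq, not_forall, not_le] at hg
    obtain ⟨T, hT, u, hu⟩ := hg
    obtain ⟨w, hw, hw2⟩ := top_unit (gsym g) T _ _ _ u hu
    have ho : IsOpen {z : Sph | √n * (2 + 5 * ε - κ / (4 * 10 ^ 9) + κ * ∑ i ∈ T, z.1 i ^ 2) <
        ∑ i, ∑ j, gsym g i j * z.1 i * z.1 j} := by
      have hc : ∀ i, Continuous fun z : Sph => z.1 i := fun i =>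
        (continuous_apply i).comp continuous_subtype_val
      refine isOpen_lt ?_ ?_
      · exact continuous_const.mul (continuous_const.add (continuous_const.mul
          (continuous_finsetSum _ fun i _ => (hc i).pow 2)))
      · exact continuous_finsetSum _ fun i _ => continuous_finsetSum _ fun j _ =>
          (continuous_const.mul (hc i)).mul (hc j)
    obtain ⟨m, hm⟩ := hv.exists_mem_open ho ⟨⟨w, hw⟩, hw2⟩
    exact Set.mem_iUnion.2 ⟨m + 1, ⟨⟨T, hT⟩, Fin.last m⟩, hm⟩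
  calc gm (Pair n) {g | ¬ Topb ε κ g} ≤ gm (Pair n) (⋃ M, A M) := measure_mono hsub
    _ = ⨆ M, gm (Pair n) (A M) := hm.measure_iUnion
    _ ≤ _ := iSup_le hA

end

end Vale.Agent.P150H
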