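import Vale.Agent.P150H.Comb
import Vale.Agent.P150H.Det
import Vale.Agent.P150H.Sep
import Vale.Agent.P150H.Top

/-! Fast mixing slightly beyond one half. -/

namespace Vale.Agent.P150H

open Vale.Agent.P150 Finset Function Real MeasureTheory ProbabilityTheory Filter Topology

noncomputable section

variable {n : ℕ}

theorem nice_of {β η ε κ : ℝ} {g : Pair n → ℝ} (hκ : κ = (1 / 10 ^ 6) ^ 2 / 20)
    (hη : η = κ / (4 * 10 ^ 9) / 8) (hε : ε = η / 50000) (b0 : 1 / 2 ≤ β) (b1 : β ≤ 1 / 2 + η)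
    (hn : 0 < n) (big : 100000 ≤ η * n) (tap : 4800 * (1 / 2 : ℝ) ^ (n / 1000) ≤ η)
    (a1 : Up ε g) (a2 : Up ε (-g)) (a3 : ∀ i, ∑ j, gsym g i j ^ 2 < (1 + ε) * n)
    (a4 : ∀ p, g p ^ 2 < ε ^ 2 * n) (a5 : Sepa g) (a6 : Topb ε κ g) :
    Nice (Jm β g) η (1 / 10 ^ 6) (3 * (1 / 10 ^ 6)) (n / 1000) := by
  have k0 : 0 < κ := by rw [hκ]; positivity
  have k1 : κ ≤ 1 := by rw [hκ]; norm_num
  have h0 : 0 < η := by rw [hη]; positivity
  have h1 : η ≤ 1 / 20 := by rw [hη]; linarith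
  have e0 : 0 < ε := by rw [hε]; positivity
  have e1 : ε ≤ 1 / 1000 := by rw [hε]; linarith
  have hβ : 0 < β := by linarith
  have hn' : (0 : ℝ) < n := by exact_mod_cast hn
  have hr := sqrt_pos.2 hn'
  have q : ∀ u : Fin n → ℝ, ∑ i, ∑ j, Jm β g i j * u i * u j =
      β / √n * ∑ i, ∑ j, gsym g i j * u i * u j := fun u => by
    simp only [Jm, mul_sum, mul_assoc]
  have q1 : ∀ u : Fin n → ℝ, β / √n * ((2 + 5 * ε) * √n * ∑ i, u i ^ 2) ≤
      2 * ∑ i, u i ^ 2 := fun u => by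
    rw [← mul_assoc]
    refine mul_le_mul_of_nonneg_right ?_ (sum_nonneg fun _ _ => sq_nonneg _)
    rw [mul_left_comm, div_mul_cancel₀ _ hr.ne']
    nlinarith
  refine ⟨h0, h1, by norm_num, by norm_num, Jm_symm, Jm_diag, fun i => ?_, fun i j => ?_,
    fun u => ?_, fun S hS u => ?_, fun x y hxy => ?_, ?_, ?_, tap⟩
  · simp only [Jm, mul_pow, ← mul_sum, div_pow, sq_sqrt hn'.le]
    refine (mul_le_mul_of_nonneg_left (a3 i).le (by positivity)).trans ?_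
    rw [mul_left_comm, div_mul_cancel₀ _ hn'.ne']
    have hs : η ≤ 1 / 1000 := by rw [hη]; linarith
    have h2 : β ^ 2 ≤ (1 / 2 + 1 / 1000) ^ 2 := pow_le_pow_left₀ hβ.le (by linarith) 2
    nlinarith [mul_le_mul h2 e1 e0.le (by norm_num)]
  · have b1 : gsym g i j ^ 2 ≤ (ε * √n) ^ 2 := by
      rw [mul_pow, sq_sqrt hn'.le]
      unfold gsym
      split_ifs
      · exact (a4 _).le
      · exact (a4 _).le
      · rw [zero_pow two_ne_zero]; positivity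
    rw [Jm, abs_mul, abs_of_nonneg (by positivity)]
    refine (mul_le_mul_of_nonneg_left (abs_le.2 (abs_le_of_sq_le_sq' b1 (by positivity)))
      (by positivity)).trans ?_
    rw [mul_left_comm, div_mul_cancel₀ _ hr.ne', ← hε]
    exact mul_le_of_le_one_right e0.le (by linarith)
  · have c1 := mul_le_mul_of_nonneg_left (a1 u) (by positivity : 0 ≤ β / √n)
    have c2 := mul_le_mul_of_nonneg_left (a2 u) (by positivity : 0 ≤ β / √n)
    have c3 := q1 u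
    rw [q, abs_le]
    refine ⟨?_, c1.trans c3⟩
    rw [quad_eq]
    simp only [quad_eq, Pi.neg_apply, mul_neg, neg_mul, sum_neg_distrib] at c2
    linarith
  · rw [Fintype.card_fin] at hS
    have c1 := mul_le_mul_of_nonneg_left (a6 S hS u) (by positivity : 0 ≤ β / √n)
    rw [q, ← hκ]
    refine c1.trans ?_
    rw [← mul_assoc, div_mul_cancel₀ _ hr.ne', mul_add, ← mul_assoc, ← mul_assoc]
    have s1 : 0 ≤ ∑ i, u i ^ 2 := sum_nonneg fun _ _ => sq_nonneg _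
    have s2 : 0 ≤ ∑ i ∈ S, u i ^ 2 := sum_nonneg fun _ _ => sq_nonneg _
    have e2 : κ / (4 * 10 ^ 9) = 8 * η := by rw [hη]; ring
    refine add_le_add (mul_le_mul_of_nonneg_right ?_ s1) (mul_le_mul_of_nonneg_right ?_ s2)
    · rw [e2, hε]
      nlinarith [mul_pos h0 h0]
    · exact mul_le_of_le_one_left k0.le (by linarith)
  · rw [Fintype.card_fin]
    refine lt_of_le_of_lt (Nat.mul_le_mul_left 2 (card_le_card fun i hi => ?_)) (a5 x y hxy)
    simp only [mem_filter, mem_univ, true_and, Jm, mul_assoc, ← mul_sum] at hi ⊢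
    rw [abs_mul, abs_of_nonneg (by positivity), div_mul_eq_mul_div, div_le_iff₀ hr] at hi
    nlinarith [abs_nonneg (∑ j, gsym g i j * (spin (x j) - spin (y j)))]
  · rw [Fintype.card_fin]
    exact Nat.mul_div_le n 1000
  · rwa [Fintype.card_fin]

theorem bad_le' {ε κ : ℝ} (h0 : 0 < ε) (h1 : ε ≤ 1) (k0 : 0 ≤ κ) (k1 : κ ≤ 1) (hn : 4000 ≤ n) :
    gm (Pair n) {g | ¬ (Up ε g ∧ Up ε (-g) ∧ (∀ i, ∑ j, gsym g i j ^ 2 < (1 + ε) * n) ∧
      (∀ p, g p ^ 2 < ε ^ 2 * n) ∧ Sepa g ∧ Topb ε κ g)} ≤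
      8 * n ^ 2 * tl ε n + 8 * n ^ 2 * tl ε n +
        (ENNReal.ofReal ((1 / 2) ^ n) + ENNReal.ofReal ((1 / 2) ^ n)) := by
  have hn0 : 0 < n := by omega
  have neg : MeasurePreserving (fun g : Pair n → ℝ => -g) (gm _) (gm _) :=
    mp_gm (by fun_prop) fun θ => ⟨-θ, fun x => by simp, by simp⟩
  have c1 := up_le h0 h1 hn0
  have c2 := (neg.measure_preimage_le _).trans c1
  have c3 := union_le (gm (Pair n)) (row_le (n := n) h0 h1)
  have c4 := union_le (gm (Pair n)) fun p => chi_one p ε n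
  have c5 : ((Fintype.card (Pair n) : ℕ) : ENNReal) ≤ n ^ 2 := by
    have := Fintype.card_subtype_le fun p : Fin n × Fin n => p.1 < p.2
    rw [Fintype.card_prod, Fintype.card_fin, ← sq] at this
    exact_mod_cast this
  have c6 : (n : ENNReal) ≤ n ^ 2 := by exact_mod_cast Nat.le_self_pow two_ne_zero n
  have c7 := sep_le hn
  have c8 := top_le hn0 h0 h1 k0 k1
  have c9 : (n : ENNReal) + 2 ≤ 8 * n ^ 2 := by
    have : n + 2 ≤ 8 * n ^ 2 := by nlinarith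
    exact_mod_cast this
  rw [Fintype.card_fin] at c3
  refine le_trans (measure_mono fun g hg => ?_) (((measure_union_le _ _).trans (add_le_add
    ((measure_union_le _ _).trans (add_le_add
    ((measure_union_le _ _).trans (add_le_add c1 c2))
    ((measure_union_le _ _).trans (add_le_add c3 c4))))
    ((measure_union_le _ _).trans (add_le_add c7 c8)))).trans ?_)
  · by_contra hc
    simp only [Set.mem_union, Set.mem_ofPred_eq, Set.mem_preimage, not_or, not_not, not_exists,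
      not_le] at hc
    exact hg ⟨hc.1.1.1, hc.1.1.2, hc.1.2.1, hc.1.2.2, hc.2.1, hc.2.2⟩
  · calc _ ≤ (n : ENNReal) ^ 2 * (2 * tl ε n) + n ^ 2 * tl ε n +
          (n ^ 2 * (2 * tl ε n) + n ^ 2 * tl ε n) + (n ^ 2 * tl ε n + n ^ 2 * tl ε n) +
          (ENNReal.ofReal ((1 / 2) ^ n) + (8 * n ^ 2 * tl ε n + ENNReal.ofReal ((1 / 2) ^ n))) := by
          gcongr
      _ = _ := by ring

theorem main' (β : ℝ) (h0 : 0 ≤ β) (h1 : β ≤ 1 / 2 + 1 / 10 ^ 24) :
    ∃ C c : ℝ, 0 < c ∧ Tendsto (fun n : ℕ => disorder n {g : Pair n → ℝ |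
      ¬ (tmix β g ≤ C * log n ∧ (∀ t, C * log n ≤ t → ∀ x, tv β g t x ≤ 1 / 4) ∧
        c ≤ gap β g ∧ gap β g ≤ 1)}) atTop (𝓝 0) := by
  rcases lt_or_ge β (1 / 2) with h | h
  · exact P150.main β h0 h
  obtain ⟨κ, hκ⟩ : ∃ κ : ℝ, κ = (1 / 10 ^ 6) ^ 2 / 20 := ⟨_, rfl⟩
  obtain ⟨η, hη⟩ : ∃ η : ℝ, η = κ / (4 * 10 ^ 9) / 8 := ⟨_, rfl⟩
  obtain ⟨ε, hε⟩ : ∃ ε : ℝ, ε = η / 50000 := ⟨_, rfl⟩
  have k0 : 0 < κ := by rw [hκ]; positivity
  have k1 : κ ≤ 1 := by rw [hκ]; norm_num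
  have g0 : 0 < η := by rw [hη]; positivity
  have g1 : η ≤ 1 := by rw [hη]; linarith
  have g2 : 1 / 10 ^ 24 ≤ η := by rw [hη, hκ]; norm_num
  have e0 : 0 < ε := by rw [hε]; positivity
  have e1 : ε ≤ 1 := by rw [hε]; linarith
  have t0 : Tendsto (fun n : ℕ => (1 / 2 : ℝ) ^ n) atTop (𝓝 0) :=
    tendsto_pow_atTop_nhds_zero_of_lt_one (by norm_num) (by norm_num)
  have t1 := ENNReal.tendsto_ofReal t0
  rw [ENNReal.ofReal_zero] at t1
  have t2 := ((tl_tendsto e0).add (tl_tendsto e0)).add (t1.add t1)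
  simp only [add_zero] at t2
  have t3 : ∀ᶠ n : ℕ in atTop, 100000 ≤ η * n :=
    (tendsto_natCast_atTop_atTop.const_mul_atTop g0).eventually_ge_atTop _
  have t4 : ∀ᶠ n : ℕ in atTop, 4800 * (1 / 2 : ℝ) ^ (n / 1000) ≤ η := by
    have := (t0.comp (Nat.tendsto_div_const_atTop (by norm_num : 1000 ≠ 0))).const_mul 4800
    rw [mul_zero] at this
    exact this.eventually_le_const g0
  refine ⟨20 * exp (64 / (η / 8) + 1), η / 8 / 2, by positivity, ?_⟩
  refine tendsto_of_tendsto_of_tendsto_of_le_of_le' tendsto_const_nhds t2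
    (Eventually.of_forall fun _ => zero_le) ?_
  filter_upwards [eventually_ge_atTop 4000, t3, t4] with n hn h3 h4
  refine le_trans (measure_mono ?_) (bad_le' (n := n) e0 e1 k0.le k1 hn)
  refine fun g hg hG => hg ?_
  obtain ⟨a1, a2, a3, a4, a5, a6⟩ := hG
  have hP := (nice_of hκ hη hε h (by linarith) (by omega) h3 h4 a1 a2 a3 a4 a5 a6).poi
  refine ⟨csInf_le ⟨0, fun t ht => ht.1⟩ ⟨?_, hP.tv (by omega) le_rfl⟩,
    fun t ht => hP.tv (by omega) ht, hP.gap (by omega)⟩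
  have := log_natCast_nonneg n
  positivity

theorem main : ∃ ε₀ : ℝ, 0 < ε₀ ∧ ∀ β : ℝ, 0 ≤ β → β < 1 / 2 + ε₀ →
    ∃ C c : ℝ, 0 < c ∧ Tendsto (fun n : ℕ => disorder n {g : Pair n → ℝ |
      ¬ (tmix β g ≤ C * log n ∧ (∀ t, C * log n ≤ t → ∀ x, tv β g t x ≤ 1 / 4) ∧
        c ≤ gap β g ∧ gap β g ≤ 1)}) atTop (𝓝 0) :=
  ⟨1 / 10 ^ 24, by norm_num, fun β h0 h1 => main' β h0 h1.le⟩

end

end Vale.Agent.P150H
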