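import Vale.Agent.P150H.HessB

/-! The second order term of the Bochner formula.
`tanh_diff`: `tanh (c + t) - tanh (c - t) = sinh (2 t) / (cosh (c + t) * cosh (c - t))`,
`1 - tanh ^ 2 = 1 / cosh ^ 2`, and `cosh (c + t) / cosh (c - t)` lies between `exp (-2 |t|)` and `exp (2 |t|)`
(or put `s = tanh c`, `τ = tanh t`, `tanh (c + t) = (s + τ) / (1 + s τ)`, `abs_tanh_bounds`).
`hess_pair`: with `F = Qw W i f`: `<D i f, D j f> = |D j D i f|^2 - <D i f, Qw W j F>` (`Ex_mul_Dw`, `Ex_ind_Dw`),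
`<D i f, G> = E (1 - m i ^ 2) * dd i f * dd i G` (polarised `Ex_Dw_sq`, same proof with `Dw_eq`),
`dd i (Qw W j F) = dd i (mw W j) * dd j F` because `F` is `Ind i`, `dd j F = dd j f - dd j (Dw W i f)`,
`dd i (mw W j) x = (tanh (c + J i j) - tanh (c - J i j)) / 2` with `lf J h j x = c + J i j * spin (x i)` (`mw_isw`).
Then `2 |J| |u i| v |b| ≤ v b ^ 2 / 2 + 2 J ^ 2 u i ^ 2` and `u i ^ 2 ≤ ee W f i`.
`hess`: sum over all pairs as in `Good.bochner` (P150/Bochner.lean); for `i = j` use `Dw W i (Dw W i f) = Dw W i f`;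
`row`, `abs`. -/

namespace Vale.Agent.P150H

open Vale.Agent.P150 Finset Function Real

noncomputable section

variable {ι : Type} [Fintype ι] [DecidableEq ι] {J : ι → ι → ℝ} {h : ι → ℝ} {η k r c : ℝ} {D : ℕ}

omit [Fintype ι] in
theorem Hess_idem {W : (ι → Bool) → ℝ} (hW : ∀ x, 0 < W x) (i : ι) (f : (ι → Bool) → ℝ)
    (x : ι → Bool) : Dw W i (Dw W i f) x = Dw W i f x := by
  rw [Dw_eq hW (Dw W i f), Dw_eq hW f x]
  congr 1
  simp only [dd, Dw, ind_Qw W i f x]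
  ring

theorem Nice.hess (hJ : Nice J η k r D) (h : ι → ℝ) (f : (ι → Bool) → ℝ) :
    (∑ i, Dir (isw J h) (Dw (isw J h) i f)) / 2 - 10 * Dir (isw J h) f ≤
      Ex (isw J h) fun x => (∑ i, Dw (isw J h) i f x) ^ 2 := by
  have hW := isw_pos J h
  have pair : ∀ i j, Ex (isw J h) (fun x =>
      Dw (isw J h) j (Dw (isw J h) i f) x * Dw (isw J h) j (Dw (isw J h) i f) x / 2 -
      J i j * ((1 - mw (isw J h) i x ^ 2) * dd i f x) * ((1 - mw (isw J h) j x ^ 2) * dd j f x) -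
      7 * J i j ^ 2 * (ee (isw J h) f i x + ee (isw J h) f j x)) ≤
      Ex (isw J h) fun x => Dw (isw J h) i f x * Dw (isw J h) j f x := by
    intro i j
    by_cases hij : i = j
    · subst hij
      refine Ex_mono hW fun x => ?_
      rw [Hess_idem hW, hJ.diag]
      nlinarith [mul_self_nonneg (Dw (isw J h) i f x)]
    · exact hess_pair hJ.symm hJ.diag h hij ((hJ.small i j).trans (by linarith [hJ.le])) f
  generalize isw J h = W at hW pair ⊢
  obtain ⟨u, hu⟩ : ∃ u : ι → (ι → Bool) → ℝ, ∀ i x, u i x = (1 - mw W i x ^ 2) * dd i f x :=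
    ⟨_, fun _ _ => rfl⟩
  have v0 : ∀ i x, 0 ≤ 1 - mw W i x ^ 2 := fun i x => sub_nonneg.2 (mw_sq_le hW x)
  have e0 : ∀ i x, 0 ≤ ee W f i x := fun i x => mul_nonneg (v0 i x) (sq_nonneg _)
  have ue : ∀ i x, u i x ^ 2 ≤ ee W f i x := fun i x => by
    have : u i x ^ 2 = (1 - mw W i x ^ 2) * ee W f i x := by rw [hu, ee]; ring
    rw [this]
    exact mul_le_of_le_one_left (e0 i x) (by nlinarith [sq_nonneg (mw W i x)])
  have e1 : Ex W (fun x => (∑ i, Dw W i f x) ^ 2) =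
      ∑ i, ∑ j, Ex W fun x => Dw W i f x * Dw W j f x := by
    simp only [sq, sum_mul_sum, Ex_sum]
  have e2 : Dir W f = Ex W fun x => ∑ i, ee W f i x := by
    simp only [Dir, Ex_Dw_sq hW, Ex_sum, ee]
  have e3 : ∑ i, Dir W (Dw W i f) =
      Ex W fun x => ∑ i, ∑ j, Dw W j (Dw W i f) x * Dw W j (Dw W i f) x := by
    simp only [Dir, Ex_sum]
  rw [e1, e2, e3, div_eq_inv_mul, ← Ex_mul, ← Ex_mul, ← Ex_sub]
  refine le_trans ?_ (sum_le_sum fun i _ => sum_le_sum fun j _ => pair i j)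
  simp only [← Ex_sum, ← hu]
  refine Ex_mono hW fun x => ?_
  have b1 := (le_abs_self _).trans (hJ.abs fun i => u i x)
  have b0 : ∑ i, u i x ^ 2 ≤ ∑ i, ee W f i x := sum_le_sum fun i _ => ue i x
  have b2 : ∑ i, ∑ j, J i j ^ 2 * ee W f i x ≤ ∑ i, 3 / 10 * ee W f i x :=
    sum_le_sum fun i _ => by
      rw [← sum_mul]; exact mul_le_mul_of_nonneg_right (hJ.row i) (e0 i x)
  have b3 : ∑ i, ∑ j, J i j ^ 2 * ee W f j x ≤ ∑ i, 3 / 10 * ee W f i x := by
    rw [sum_comm]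
    simpa only [hJ.symm] using b2
  have b4 : 0 ≤ ∑ i, ee W f i x := sum_nonneg fun i _ => e0 i x
  have b5 : ∑ i, ∑ j, 7 * J i j ^ 2 * (ee W f i x + ee W f j x) =
      7 * ∑ i, ∑ j, J i j ^ 2 * ee W f i x + 7 * ∑ i, ∑ j, J i j ^ 2 * ee W f j x := by
    simp only [mul_sum, ← sum_add_distrib]
    exact sum_congr rfl fun i _ => sum_congr rfl fun j _ => by ring
  simp only [sum_sub_distrib, ← sum_div, b5]
  rw [← mul_sum] at b2 b3
  linarith

end

end Vale.Agent.P150H
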