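import Vale.Agent.P150H.D

/-! The second order term of the Bochner formula.
`tanh_diff`: `tanh (c + t) - tanh (c - t) = sinh (2 t) / (cosh (c + t) * cosh (c - t))`,
`1 - tanh ^ 2 = 1 / cosh ^ 2`, and `cosh (c + t) / cosh (c - t)` lies between `exp (-2 |t|)` and `exp (2 |t|)`
(or put `s = tanh c`, `τ = tanh t`, `tanh (c + t) = (s + τ) / (1 + s τ)`, `abs_tanh_bounds`).
`hess_pair`: with `F = Qw W i f`: `<D i f, D j f> = |D j D i f|^2 - <D i f, Qw W j F>` (`Ex_mul_Dw`, `Ex_ind_Dw`),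
`<D i f, G> = E (1 - m i ^ 2) * dd i f * dd i G` (polarised `Ex_Dw_sq`, same proof with `Dw_eq`),
`dd i (Qw W j F) = dd i (mw W j) * dd j F` because `F` is `Ind i`, `dd j F = dd j f - dd j (Dw W i f)`,
`dd i (mw W j) x = (tanh (c + J i j) - tanh (c - J i j)) / 2` with `lf J h j x = c + J i j * spin (x i)` (`mw_isw`).
Then `2 |J| |u i| v |b| ≤ v b ^ 2 / 2 + 2 J ^ 2 u i ^ 2` and `u i ^ 2 ≤ ee W f i`.
`hess`: sum over all pairs as in `Good.bochner` (P150/Bochner.lean); for `i = j` use `Dw W i (Dw W i f) = Dw W i f`;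
`row`, `abs`. -/

namespace Vale.Agent.P150H

open Vale.Agent.P150 Finset Function Real

noncomputable section

variable {ι : Type} [Fintype ι] [DecidableEq ι] {J : ι → ι → ℝ} {h : ι → ℝ} {η k r c : ℝ} {D : ℕ}

theorem hessA_one (c : ℝ) {t : ℝ} (ht : |t| ≤ 1 / 100) :
    |(tanh (c + t) - tanh (c - t)) / 2 - t * (1 - tanh (c + t) ^ 2)| ≤
      10 * t ^ 2 * (1 - tanh (c + t) ^ 2) := by
  have hA := cosh_pos (c + t)
  have hB := cosh_pos (c - t)
  have hw : 1 - tanh (c + t) ^ 2 = 1 / cosh (c + t) ^ 2 := by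
    have := cosh_sq_sub_sinh_sq (c + t)
    rw [tanh_eq_sinh_div_cosh]
    field_simp
    linarith
  have hw0 : 0 ≤ 1 - tanh (c + t) ^ 2 := by rw [hw]; positivity
  have hS : sinh (2 * t) = sinh (c + t) * cosh (c - t) - cosh (c + t) * sinh (c - t) := by
    rw [← sinh_sub]; exact congrArg sinh (by ring)
  have hρ : cosh (c + t) / cosh (c - t) = cosh (2 * t) + tanh (c - t) * sinh (2 * t) := by
    have : cosh (c + t) = cosh (c - t) * cosh (2 * t) + sinh (c - t) * sinh (2 * t) := by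
      rw [← cosh_add]; exact congrArg cosh (by ring)
    rw [this, tanh_eq_sinh_div_cosh]
    field_simp
  have hid : (tanh (c + t) - tanh (c - t)) / 2 - t * (1 - tanh (c + t) ^ 2) =
      (sinh (2 * t) / 2 * (cosh (c + t) / cosh (c - t)) - t) * (1 - tanh (c + t) ^ 2) := by
    rw [hw, hS, tanh_eq_sinh_div_cosh, tanh_eq_sinh_div_cosh]
    field_simp
  rw [hid, abs_mul, abs_of_nonneg hw0, hρ]
  refine mul_le_mul_of_nonneg_right ?_ hw0
  have h1 : |2 * t| ≤ 1 := by rw [abs_mul, abs_two]; linarith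
  have h2 : |-(2 * t)| ≤ 1 := by rwa [abs_neg]
  have e1 := abs_le.1 (abs_exp_sub_one_sub_id_le h1)
  have e2 := abs_le.1 (abs_exp_sub_one_sub_id_le h2)
  have hs : |tanh (c - t)| ≤ 1 := (abs_tanh_lt_one _).le
  have ha := abs_nonneg t
  have hq : t ^ 2 = |t| * |t| := by rw [← sq, sq_abs]
  have hq2 : t ^ 2 ≤ |t| / 100 := by rw [hq]; nlinarith
  have s1 : |sinh (2 * t) / 2 - t| ≤ 2 * t ^ 2 := by
    rw [sinh_eq, abs_le]
    constructor <;> nlinarith [e1.1, e1.2, e2.1, e2.2]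
  have s2 : |cosh (2 * t) - 1| ≤ 4 * t ^ 2 := by
    rw [cosh_eq, abs_le]
    constructor <;> nlinarith [e1.1, e1.2, e2.1, e2.2]
  have s3 : |sinh (2 * t)| ≤ 2 * |t| + 4 * t ^ 2 := by
    have e : sinh (2 * t) = 2 * (sinh (2 * t) / 2 - t) + 2 * t := by ring
    rw [e]
    refine (abs_add_le _ _).trans ?_
    rw [abs_mul, abs_mul, abs_two]
    linarith
  have s4 : |cosh (2 * t) + tanh (c - t) * sinh (2 * t) - 1| ≤ 3 * |t| := by
    have e : cosh (2 * t) + tanh (c - t) * sinh (2 * t) - 1 =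
        (cosh (2 * t) - 1) + tanh (c - t) * sinh (2 * t) := by ring
    rw [e]
    refine (abs_add_le _ _).trans ?_
    rw [abs_mul]
    have := mul_le_mul hs s3 (abs_nonneg _) zero_le_one
    linarith
  generalize cosh (2 * t) + tanh (c - t) * sinh (2 * t) = ρ at s4
  generalize sinh (2 * t) / 2 = S at s1
  have e : S * ρ - t = (S - t) * (ρ - 1) + (S - t) + t * (ρ - 1) := by ring
  rw [e]
  refine (abs_add_three _ _ _).trans ?_
  rw [abs_mul, abs_mul]
  have m1 := mul_le_mul s1 (s4.trans (by linarith : 3 * |t| ≤ 1)) (abs_nonneg _) (by positivity)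
  have m2 := mul_le_mul_of_nonneg_left s4 ha
  nlinarith [sq_nonneg t]

theorem tanh_diff (c : ℝ) {t y : ℝ} (ht : |t| ≤ 1 / 100) (hy : y = 1 ∨ y = -1) :
    |(tanh (c + t) - tanh (c - t)) / 2 - t * (1 - tanh (c + t * y) ^ 2)| ≤
      10 * t ^ 2 * (1 - tanh (c + t * y) ^ 2) := by
  rcases hy with rfl | rfl
  · rw [mul_one]
    exact hessA_one c ht
  · have h1 := hessA_one c (t := -t) (by rwa [abs_neg])
    rw [sub_neg_eq_add, ← abs_neg, neg_sq] at h1
    rw [mul_neg, mul_one, sub_eq_add_neg c t]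
    refine le_of_eq_of_le (congrArg abs ?_) h1
    ring

end

end Vale.Agent.P150H
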