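import Vale.Agent.P150H.HessA

/-! The second order term of the Bochner formula.
`tanh_diff`: `tanh (c + t) - tanh (c - t) = sinh (2 t) / (cosh (c + t) * cosh (c - t))`,
`1 - tanh ^ 2 = 1 / cosh ^ 2`, and `cosh (c + t) / cosh (c - t)` lies between `exp (-2 |t|)` and `exp (2 |t|)`
(or put `s = tanh c`, `τ = tanh t`, `tanh (c + t) = (s + τ) / (1 + s τ)`, `abs_tanh_bounds`).
`hess_pair`: with `F = Qw W i f`: `<D i f, D j f> = |D j D i f|^2 - <D i f, Qw W j F>` (`Ex_mul_Dw`, `Ex_ind_Dw`),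
`<D i f, G> = E (1 - m i ^ 2) * dd i f * dd i G` (polarised `Ex_Dw_sq`, same proof with `Dw_eq`),
`dd i (Qw W j F) = dd i (mw W j) * dd j F` because `F` is `Ind i`, `dd j F = dd j f - dd j (Dw W i f)`,
`dd i (mw W j) x = (tanh (c + J i j) - tanh (c - J i j)) / 2` with `lf J h j x = c + J i j * spin (x i)` (`mw_isw`).
Then `2 |J| |u i| v |b| ≤ v b ^ 2 / 2 + 2 J ^ 2 u i ^ 2` and `u i ^ 2 ≤ ee W f i`.
`hess`: sum over all pairs as in `Good.bochner` (P150/Bochner.lean); for `i = j` use `Dw W i (Dw W i f) = Dw W i f`;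
`row`, `abs`. -/

namespace Vale.Agent.P150H

open Vale.Agent.P150 Finset Function Real

noncomputable section

variable {ι : Type} [Fintype ι] [DecidableEq ι] {J : ι → ι → ℝ} {h : ι → ℝ} {η k r c : ℝ} {D : ℕ}

theorem hb_pol {W : (ι → Bool) → ℝ} (hW : ∀ x, 0 < W x) (i : ι) (f g : (ι → Bool) → ℝ) :
    Ex W (fun x => Dw W i g x * Dw W i f x) =
      Ex W fun x => (1 - mw W i x ^ 2) * dd i f x * dd i g x := by
  refine mul_left_cancel₀ two_ne_zero ?_
  rw [Ex, Ex, sum_split i, sum_split i]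
  refine sum_congr rfl fun x _ => ?_
  have := (add_pos (hW (update x i true)) (hW (update x i false))).ne'
  simp only [Dw_eq hW, ind_mw W i x, ind_dd i f x, ind_dd i g x, update_self, spin_true, spin_false]
  rw [mw]
  field_simp
  ring

omit [Fintype ι] in
theorem hb_Q {W : (ι → Bool) → ℝ} (hW : ∀ x, 0 < W x) (j : ι) (F : (ι → Bool) → ℝ) (x : ι → Bool) :
    Qw W j F x = (F (update x j true) + F (update x j false)) / 2 + mw W j x * dd j F x := by
  have := (add_pos (hW (update x j true)) (hW (update x j false))).ne'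
  rw [Qw, mw, dd]
  field_simp
  ring

omit [Fintype ι] in
theorem hb_dd {W : (ι → Bool) → ℝ} (hW : ∀ x, 0 < W x) {i j : ι} (hij : i ≠ j)
    {F : (ι → Bool) → ℝ} (hF : Ind i F) (x : ι → Bool) :
    dd i (Qw W j F) x = dd i (mw W j) x * dd j F x := by
  have e : ∀ b b', F (update (update x i b) j b') = F (update x j b') := fun b b' => by
    rw [update_comm hij, hF]
  rw [dd, hb_Q hW, hb_Q hW]
  simp only [dd, e]
  ring

theorem hb_mu (hs : ∀ i j, J i j = J j i) (hd : ∀ i, J i i = 0) (h : ι → ℝ) (i j : ι)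
    (ht : |J i j| ≤ 1 / 100) (x : ι → Bool) :
    |dd i (mw (isw J h) j) x - J i j * (1 - mw (isw J h) j x ^ 2)| ≤
      10 * J i j ^ 2 * (1 - mw (isw J h) j x ^ 2) := by
  have e : ∀ b, lf J h j (update x i b) =
      (h j + ∑ k ∈ univ.erase i, J j k * spin (x k)) + J i j * spin b := fun b => by
    rw [lf, ← sum_erase_add _ _ (mem_univ i), update_self, hs j i, add_assoc]
    congr 2
    exact sum_congr rfl fun k hk => by rw [update_of_ne (ne_of_mem_erase hk)]
  have e1 := e (x i)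
  rw [update_eq_self] at e1
  rw [dd, mw_isw hs hd, mw_isw hs hd, mw_isw hs hd, e, e, e1, spin_true, spin_false, mul_one,
    mul_neg_one, ← sub_eq_add_neg]
  exact tanh_diff _ ht (spin_or _)

theorem hb_pt {v t μ u e b c : ℝ} (v0 : 0 ≤ v) (v1 : v ≤ 1) (ht : |t| ≤ 1 / 100)
    (hμ : |μ - t * v| ≤ 10 * t ^ 2 * v) (hu : u ^ 2 ≤ e) :
    v * b ^ 2 / 2 - t * u * (v * c) - 7 * t ^ 2 * (e + v * c ^ 2) ≤ v * b ^ 2 - u * (μ * (c - b)) := by
  have a0 := abs_nonneg t
  have t2 := sq_nonneg t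
  have a1 : u * (μ - t * v) * c ≤ 5 * t ^ 2 * (e + v * c ^ 2) := by
    have b1 : u * (μ - t * v) * c ≤ 10 * t ^ 2 * v * (|u| * |c|) := by
      refine (le_abs_self _).trans ?_
      rw [mul_right_comm, abs_mul, abs_mul, mul_comm]
      exact mul_le_mul_of_nonneg_right hμ (by positivity)
    have b2 : 2 * |u| * (v * |c|) ≤ e + v * c ^ 2 := by
      have c1 := two_mul_le_add_sq |u| (v * |c|)
      rw [mul_pow, sq_abs, sq_abs] at c1
      nlinarith [mul_nonneg (mul_nonneg v0 (sub_nonneg.2 v1)) (sq_nonneg c)]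
    nlinarith [mul_le_mul_of_nonneg_left b2 t2]
  have a2 : |μ| ≤ 2 * |t| * v := by
    have b1 := abs_add_le (μ - t * v) (t * v)
    rw [sub_add_cancel, abs_mul, abs_of_nonneg v0] at b1
    rw [← sq_abs] at hμ
    nlinarith [mul_nonneg (mul_nonneg a0 v0) (sub_nonneg.2 ht)]
  have a3 : -(u * μ * b) ≤ v * b ^ 2 / 2 + 2 * t ^ 2 * e := by
    have b1 : -(u * μ * b) ≤ 2 * |t| * v * (|u| * |b|) := by
      refine (neg_le_abs _).trans ?_
      rw [mul_right_comm, abs_mul, abs_mul, mul_comm]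
      exact mul_le_mul_of_nonneg_right a2 (by positivity)
    have b2 := two_mul_le_add_sq |b| (2 * |t| * |u|)
    rw [mul_pow, mul_pow, sq_abs, sq_abs, sq_abs] at b2
    have b3 : v * u ^ 2 ≤ e := (mul_le_of_le_one_left (sq_nonneg u) v1).trans hu
    nlinarith [mul_le_mul_of_nonneg_left b2 v0, mul_le_mul_of_nonneg_left b3 t2]
  nlinarith [mul_nonneg t2 (mul_nonneg v0 (sq_nonneg c))]

theorem hess_pair (hs : ∀ i j, J i j = J j i) (hd : ∀ i, J i i = 0) (h : ι → ℝ) {i j : ι}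
    (hij : i ≠ j) (ht : |J i j| ≤ 1 / 100) (f : (ι → Bool) → ℝ) :
    Ex (isw J h) (fun x => Dw (isw J h) j (Dw (isw J h) i f) x * Dw (isw J h) j (Dw (isw J h) i f) x / 2 -
      J i j * ((1 - mw (isw J h) i x ^ 2) * dd i f x) * ((1 - mw (isw J h) j x ^ 2) * dd j f x) -
      7 * J i j ^ 2 * (ee (isw J h) f i x + ee (isw J h) f j x)) ≤
      Ex (isw J h) fun x => Dw (isw J h) i f x * Dw (isw J h) j f x := by
  have hW := isw_pos J h
  have hm := hb_mu hs hd h i j ht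
  set W := isw J h
  have v0 : ∀ i x, 0 ≤ 1 - mw W i x ^ 2 := fun i x => sub_nonneg.2 (mw_sq_le hW x)
  have v1 : ∀ i x, 1 - mw W i x ^ 2 ≤ 1 := fun i x => sub_le_self _ (sq_nonneg _)
  have d1 : ∀ x, dd j (Qw W i f) x = dd j f x - dd j (Dw W i f) x := fun x => by
    simp only [dd, Dw]
    ring
  have d2 : ∀ x, Dw W j f x = Dw W j (Dw W i f) x + Dw W j (Qw W i f) x := fun x => by
    simp only [Dw_eq hW (i := j), d1]
    ring
  have e1 : Ex W (fun x => Dw W i f x * Dw W j (Qw W i f) x) =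
      -Ex W fun x => Qw W j (Qw W i f) x * Dw W i f x := by
    rw [← zero_sub, ← Ex_ind_Dw hW (ind_Qw W i f) f, ← Ex_sub]
    refine Ex_congr fun x => ?_
    rw [show Dw W j (Qw W i f) x = Qw W i f x - Qw W j (Qw W i f) x from rfl]
    ring
  have e2 : Ex W (fun x => Dw W i f x * Dw W j f x) = Ex W fun x =>
      (1 - mw W j x ^ 2) * dd j (Dw W i f) x ^ 2 - (1 - mw W i x ^ 2) * dd i f x *
        (dd i (mw W j) x * (dd j f x - dd j (Dw W i f) x)) := by
    simp only [d2, mul_add, Ex_add]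
    rw [e1, Ex_mul_Dw hW (i := j), Ex_Dw_sq hW, Ex_mul_Dw hW (i := i), hb_pol hW, Ex_sub,
      sub_eq_add_neg]
    simp only [hb_dd hW hij (ind_Qw W i f), d1]
  have e3 : Ex W (fun x => Dw W j (Dw W i f) x * Dw W j (Dw W i f) x / 2) =
      Ex W fun x => (1 - mw W j x ^ 2) * dd j (Dw W i f) x ^ 2 / 2 := by
    simp only [div_eq_inv_mul, Ex_mul, Ex_Dw_sq hW]
  rw [e2, Ex_sub, Ex_sub, e3, ← Ex_sub, ← Ex_sub]
  refine Ex_mono hW fun x => hb_pt (v0 j x) (v1 j x) ht (hm x) ?_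
  rw [ee, mul_pow, sq (1 - _), mul_assoc]
  exact mul_le_of_le_one_left (mul_nonneg (v0 i x) (sq_nonneg _)) (v1 i x)

end

end Vale.Agent.P150H
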