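import Vale.Agent.P150H.D

/-! A Lyapunov function.
`lyap_site`: `sum_split i`; with `a b > 0` the weights and `p q > 0` the values of `V`, the difference of the two
sides is `a b / (a + b) * p q * (φ₁ / p - φ₂ / q) ^ 2`.
`Dw_flip`: `Dw_eq`, cases on `x i`.
`op_norm`: polarisation with `w = J u`: apply `abs` to `w + 2 u` and `w - 2 u` (`symm`).
`many`: `∑ i, (lf x - lf x₀) ^ 2 ≤ 4 * 4 * hd x x₀ ≤ 32 D`, so at most `128 D` sites change by more than `1 / 2`; at most
`2 D` sites differ; less than a quarter of the sites have `k < |lf x₀|`; `size`.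
`lyap`: `V = 1 + U`, `U x = 2 ^ D * (1 / 2) ^ hd x x₀`. With `p i = (1 - mw W i x * spin (x i)) / 2 ∈ [0, 1]`,
`Dw W i V x = p i * U x / 2` if `x i = x₀ i`, `= - p i * U x` otherwise; `p i ≥ 1 / 10` if `|lf| ≤ 1` (`tanh 1 ≤ 4 / 5`).
So `∑ i, Dw W i V x ≥ N / 50 * U x` for `hd ≤ 2 D` (`N / 40 - 2 D`), `≥ - N * U x` always; `U / V ≥ 1 / 2` for
`hd ≤ D`, `U / V ≤ U ≤ (1 / 2) ^ D` for `hd > 2 D`. -/

namespace Vale.Agent.P150H

open Vale.Agent.P150 Finset Function Real

noncomputable section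

variable {ι : Type} [Fintype ι] [DecidableEq ι] {J : ι → ι → ℝ} {h : ι → ℝ} {η k r c : ℝ} {D : ℕ}

theorem Nice.op_norm (hJ : Nice J η k r D) (u : ι → ℝ) :
    ∑ i, (∑ j, J i j * u j) ^ 2 ≤ 4 * ∑ i, u i ^ 2 := by
  obtain ⟨w, hw⟩ : ∃ w : ι → ℝ, w = fun i => ∑ j, J i j * u j := ⟨_, rfl⟩
  have e0 : ∀ i, ∑ j, J i j * u j = w i := fun i => by rw [hw]
  have a := (abs_le.1 (hJ.abs fun i => w i + 2 * u i)).2
  have b := (abs_le.1 (hJ.abs fun i => w i - 2 * u i)).1
  have e1 : ∑ i, ∑ j, J i j * w i * u j = ∑ i, w i ^ 2 := by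
    refine sum_congr rfl fun i _ => ?_
    rw [show w i ^ 2 = w i * ∑ j, J i j * u j by rw [e0, sq], mul_sum]
    exact sum_congr rfl fun j _ => by ring
  have e2 : ∑ i, ∑ j, J i j * u i * w j = ∑ i, w i ^ 2 := by
    rw [sum_comm, ← e1]
    exact sum_congr rfl fun i _ => sum_congr rfl fun j _ => by rw [hJ.symm j i]; ring
  have e3 : ∑ i, ∑ j, J i j * (w i + 2 * u i) * (w j + 2 * u j) =
      ∑ i, ∑ j, J i j * (w i - 2 * u i) * (w j - 2 * u j) +
        4 * ∑ i, ∑ j, J i j * w i * u j + 4 * ∑ i, ∑ j, J i j * u i * w j := by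
    simp only [mul_sum, ← sum_add_distrib]
    exact sum_congr rfl fun i _ => sum_congr rfl fun j _ => by ring
  have e4 : ∑ i, (w i + 2 * u i) ^ 2 + ∑ i, (w i - 2 * u i) ^ 2 =
      2 * ∑ i, w i ^ 2 + 8 * ∑ i, u i ^ 2 := by
    simp only [mul_sum, ← sum_add_distrib]
    exact sum_congr rfl fun i _ => by ring
  simp only [e0]
  rw [e3, e1, e2] at a
  linarith

theorem Nice.many (hJ : Nice J η k r D) {x x₀ : ι → Bool} (h0 : Bad J h k x₀)
    (hx : hd x x₀ ≤ 2 * D) :
    Fintype.card ι ≤ 2 * (univ.filter fun i => |lf J h i x| ≤ 1 ∧ x i = x₀ i).card := by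
  have h1 := hJ.op_norm fun j => spin (x j) - spin (x₀ j)
  have h2 : ∑ j, (spin (x j) - spin (x₀ j)) ^ 2 = 4 * (hd x x₀ : ℝ) := by
    rw [hd, card_filter, Nat.cast_sum, mul_sum]
    refine sum_congr rfl fun j _ => ?_
    cases x j <;> cases x₀ j <;> norm_num
  have h3 : ∀ i, ∑ j, J i j * (spin (x j) - spin (x₀ j)) = lf J h i x - lf J h i x₀ := by
    intro i
    simp only [lf, mul_sub, sum_sub_distrib]
    ring
  simp only [h3] at h1
  rw [h2] at h1
  have h4 : ((univ.filter fun i => 1 / 2 < |lf J h i x - lf J h i x₀|).card : ℝ) ≤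
      4 * ∑ i, (lf J h i x - lf J h i x₀) ^ 2 := by
    rw [card_filter, Nat.cast_sum, mul_sum]
    refine sum_le_sum fun i _ => ?_
    split_ifs with hi
    · rw [← sq_abs]
      push_cast
      nlinarith
    · push_cast
      positivity
  have h5 : (univ.filter fun i => 1 / 2 < |lf J h i x - lf J h i x₀|).card ≤ 128 * D := by
    have hx' : (hd x x₀ : ℝ) ≤ 2 * D := by exact_mod_cast hx
    have : ((univ.filter fun i => 1 / 2 < |lf J h i x - lf J h i x₀|).card : ℝ) ≤ 128 * D := by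
      linarith
    exact_mod_cast this
  have h6 : (univ : Finset ι) ⊆ (univ.filter fun i => |lf J h i x| ≤ 1 ∧ x i = x₀ i) ∪
      ((univ.filter fun i => 1 / 2 < |lf J h i x - lf J h i x₀|) ∪
        ((univ.filter fun i => x i ≠ x₀ i) ∪ univ.filter fun i => k < |lf J h i x₀|)) := by
    intro i _
    simp only [mem_union, mem_filter, mem_univ, true_and]
    by_cases a : 1 / 2 < |lf J h i x - lf J h i x₀|
    · exact Or.inr (Or.inl a)
    by_cases b : x i = x₀ i
    swap
    · exact Or.inr (Or.inr (Or.inl b))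
    by_cases d : k < |lf J h i x₀|
    · exact Or.inr (Or.inr (Or.inr d))
    refine Or.inl ⟨?_, b⟩
    have := abs_sub_abs_le_abs_sub (lf J h i x) (lf J h i x₀)
    have := hJ.kle
    linarith [not_lt.1 a, not_lt.1 d]
  have h7 := (card_le_card h6).trans ((card_union_le _ _).trans (Nat.add_le_add_left
    ((card_union_le _ _).trans (Nat.add_le_add_left (card_union_le _ _) _)) _))
  rw [card_univ] at h7
  have h8 := hJ.size
  unfold Bad at h0
  unfold hd at hx
  omega

end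

end Vale.Agent.P150H
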