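import Vale.Agent.P150H.LyapA
import Vale.Agent.P150H.LyapB

/-! A Lyapunov function.
`lyap_site`: `sum_split i`; with `a b > 0` the weights and `p q > 0` the values of `V`, the difference of the two
sides is `a b / (a + b) * p q * (φ₁ / p - φ₂ / q) ^ 2`.
`Dw_flip`: `Dw_eq`, cases on `x i`.
`op_norm`: polarisation with `w = J u`: apply `abs` to `w + 2 u` and `w - 2 u` (`symm`).
`many`: `∑ i, (lf x - lf x₀) ^ 2 ≤ 4 * 4 * hd x x₀ ≤ 32 D`, so at most `128 D` sites change by more than `1 / 2`; at most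
`2 D` sites differ; less than a quarter of the sites have `k < |lf x₀|`; `size`.
`lyap`: `V = 1 + U`, `U x = 2 ^ D * (1 / 2) ^ hd x x₀`. With `p i = (1 - mw W i x * spin (x i)) / 2 ∈ [0, 1]`,
`Dw W i V x = p i * U x / 2` if `x i = x₀ i`, `= - p i * U x` otherwise; `p i ≥ 1 / 10` if `|lf| ≤ 1` (`tanh 1 ≤ 4 / 5`).
So `∑ i, Dw W i V x ≥ N / 50 * U x` for `hd ≤ 2 D` (`N / 40 - 2 D`), `≥ - N * U x` always; `U / V ≥ 1 / 2` for
`hd ≤ D`, `U / V ≤ U ≤ (1 / 2) ^ D` for `hd > 2 D`. -/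

namespace Vale.Agent.P150H

open Vale.Agent.P150 Finset Function Real

noncomputable section

variable {ι : Type} [Fintype ι] [DecidableEq ι] {J : ι → ι → ℝ} {h : ι → ℝ} {η k r c : ℝ} {D : ℕ}

theorem lyap_hd_eq {x x₀ : ι → Bool} {i : ι} (hi : x i = x₀ i) :
    hd (update x i (!x i)) x₀ = hd x x₀ + 1 := by
  have e : (univ.filter fun j => update x i (!x i) j ≠ x₀ j) =
      insert i (univ.filter fun j => x j ≠ x₀ j) := by
    ext j
    by_cases hj : j = i
    · subst hj
      simp [← hi]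
    · simp [hj]
  rw [hd, e, card_insert_of_notMem (by simp [hi]), hd]

theorem lyap_hd_ne {x x₀ : ι → Bool} {i : ι} (hi : x i ≠ x₀ i) :
    hd x x₀ = hd (update x i (!x i)) x₀ + 1 := by
  have h1 : update x i (!x i) i = x₀ i := by
    rw [update_self]
    revert hi
    cases x i <;> cases x₀ i <;> simp
  have h2 := lyap_hd_eq h1
  rwa [update_idem, update_self, Bool.not_not, update_eq_self] at h2

theorem lyap_tanh {a : ℝ} (ha : |a| ≤ 1) : |tanh a| ≤ 4 / 5 := by
  obtain ⟨h1, h2⟩ := abs_le.1 ha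
  have e3 : exp 1 ≤ 3 := exp_one_lt_three.le
  have p1 := exp_pos a
  have p2 := exp_pos (-a)
  have m : exp a * exp (-a) = 1 := by rw [← exp_add, add_neg_cancel, exp_zero]
  have b1 : exp a ≤ 3 := (exp_le_exp.2 h2).trans e3
  have b2 : exp (-a) ≤ 3 := (exp_le_exp.2 (by linarith)).trans e3
  have c1 : exp a ≤ 9 * exp (-a) := by nlinarith
  have c2 : exp (-a) ≤ 9 * exp a := by nlinarith
  rw [tanh_eq_sinh_div_cosh, abs_div, abs_of_pos (cosh_pos a), div_le_iff₀ (cosh_pos a), sinh_eq,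
    cosh_eq, abs_le]
  constructor <;> linarith

theorem lyap_sum (hJ : Nice J η k r D) (x₀ x : ι → Bool) {U : (ι → Bool) → ℝ}
    (hU : ∀ y, U y = 2 ^ D * (1 / 2) ^ hd y x₀) :
    ((univ.filter fun i => |lf J h i x| ≤ 1 ∧ x i = x₀ i).card / 20 - hd x x₀) * U x ≤
      ∑ i, Dw (isw J h) i (fun y => 1 + U y) x := by
  have hW := isw_pos J h
  have hU0 : 0 < U x := by rw [hU]; positivity
  have key : ∀ i, ((if |lf J h i x| ≤ 1 ∧ x i = x₀ i then (1 : ℝ) else 0) / 20 -
      (if x i ≠ x₀ i then (1 : ℝ) else 0)) * U x ≤ Dw (isw J h) i (fun y => 1 + U y) x := by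
    intro i
    have hs : |spin (x i)| = 1 := by cases x i <;> simp
    have hm : |mw (isw J h) i x * spin (x i)| = |mw (isw J h) i x| := by rw [abs_mul, hs, mul_one]
    obtain ⟨m1, m2⟩ := abs_le.1 (hm.trans_le (abs_mw_le hW x))
    rw [Dw_flip hW]
    by_cases hi : x i = x₀ i
    · have e : U (update x i (!x i)) = U x / 2 := by rw [hU, hU, lyap_hd_eq hi]; ring
      rw [e, if_neg (not_not.2 hi)]
      split_ifs with hc
      · have m3 := (abs_le.1 (hm.trans_le ((congrArg abs (mw_isw hJ.symm hJ.diag h i x)).trans_le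
          (lyap_tanh hc.1)))).2
        nlinarith
      · nlinarith
    · have e : U (update x i (!x i)) = 2 * U x := by rw [hU, hU, lyap_hd_ne hi]; ring
      rw [e, if_neg fun hc => hi hc.2, if_pos hi]
      nlinarith
  refine le_of_eq_of_le ?_ (sum_le_sum fun i _ => key i)
  rw [← sum_mul, sum_sub_distrib, ← sum_div, sum_boole, sum_boole, hd]

theorem Nice.lyap (hJ : Nice J η k r D) {x₀ : ι → Bool} (h0 : Bad J h k x₀)
    (φ : (ι → Bool) → ℝ) :
    (Fintype.card ι : ℝ) / 100 * Ex (isw J h) (fun x => if hd x x₀ ≤ D then φ x ^ 2 else 0) ≤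
      Dir (isw J h) φ + Fintype.card ι * (1 / 2 : ℝ) ^ D * Ex (isw J h) fun x => φ x ^ 2 := by
  have hW := isw_pos J h
  obtain ⟨U, hU⟩ : ∃ U : (ι → Bool) → ℝ, ∀ y, U y = 2 ^ D * (1 / 2) ^ hd y x₀ :=
    ⟨_, fun _ => rfl⟩
  have hU0 : ∀ y, 0 < U y := fun y => by rw [hU]; positivity
  have hV : ∀ y, 0 < 1 + U y := fun y => by linarith [hU0 y]
  have hN : (0 : ℝ) ≤ Fintype.card ι := Nat.cast_nonneg _
  have h2 : (2 : ℝ) ^ D * (1 / 2) ^ D = 1 := by rw [← mul_pow]; norm_num
  have hq : (0 : ℝ) < (1 / 2) ^ D := by positivity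
  have key : ∀ x, (if hd x x₀ ≤ D then (Fintype.card ι : ℝ) / 100 else 0) ≤
      (∑ i, Dw (isw J h) i (fun y => 1 + U y) x) / (1 + U x) + Fintype.card ι * (1 / 2 : ℝ) ^ D := by
    intro x
    have hs := lyap_sum (h := h) hJ x₀ x hU
    have hux := hU0 x
    rw [← sub_le_iff_le_add, le_div_iff₀ (hV x)]
    refine le_trans ?_ hs
    have hNq := mul_nonneg (mul_nonneg hN hq.le) (hV x).le
    by_cases hx : hd x x₀ ≤ 2 * D
    · have a1 : (Fintype.card ι : ℝ) ≤
          2 * (univ.filter fun i => |lf J h i x| ≤ 1 ∧ x i = x₀ i).card := by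
        exact_mod_cast hJ.many h0 hx
      have a2 : (hd x x₀ : ℝ) ≤ 2 * D := by exact_mod_cast hx
      have a3 : (1000 : ℝ) * D ≤ Fintype.card ι := by exact_mod_cast hJ.size
      refine le_trans ?_ (mul_le_mul_of_nonneg_right
        (show (Fintype.card ι : ℝ) / 50 ≤ _ by linarith) hux.le)
      split_ifs with hc
      · have a4 : 1 ≤ U x := by
          have a5 : (1 / 2 : ℝ) ^ D ≤ (1 / 2) ^ hd x x₀ :=
            pow_le_pow_of_le_one (by norm_num) (by norm_num) hc
          rw [hU]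
          exact h2.symm.trans_le (mul_le_mul_of_nonneg_left a5 (by positivity))
        nlinarith [mul_le_mul_of_nonneg_left a4 hN]
      · nlinarith [mul_nonneg hN hux.le]
    · have a1 : (hd x x₀ : ℝ) ≤ Fintype.card ι := by
        exact_mod_cast (card_filter_le _ _).trans_eq card_univ
      have a2 : U x ≤ (1 / 2) ^ D := by
        have a3 : (1 / 2 : ℝ) ^ hd x x₀ ≤ (1 / 2) ^ (D + D) :=
          pow_le_pow_of_le_one (by norm_num) (by norm_num) (by omega)
        rw [hU]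
        refine (mul_le_mul_of_nonneg_left a3 (by positivity)).trans_eq ?_
        rw [pow_add, ← mul_assoc, h2, one_mul]
      have a4 : (0 : ℝ) ≤ (univ.filter fun i => |lf J h i x| ≤ 1 ∧ x i = x₀ i).card :=
        Nat.cast_nonneg _
      rw [if_neg (by omega)]
      nlinarith [mul_le_mul_of_nonneg_left a2 hN, mul_le_mul_of_nonneg_right a1 hux.le,
        mul_nonneg a4 hux.le, mul_nonneg (mul_nonneg hN hq.le) hux.le]
  have h3 : Ex (isw J h)
      (fun x => ∑ i, φ x ^ 2 * (Dw (isw J h) i (fun y => 1 + U y) x / (1 + U x))) ≤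
      Dir (isw J h) φ := by
    rw [Ex_sum]
    exact sum_le_sum fun i _ => lyap_site hW hV i φ
  refine le_trans ?_ (add_le_add h3 le_rfl)
  rw [← Ex_mul, ← Ex_mul, ← Ex_add]
  refine Ex_mono hW fun x => ?_
  have h4 := mul_le_mul_of_nonneg_left (key x) (sq_nonneg (φ x))
  rw [← mul_sum, ← sum_div]
  split_ifs at h4 ⊢ <;> linarith

end

end Vale.Agent.P150H
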