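import Vale.Agent.P150H.D

/-! A Lyapunov function.
`lyap_site`: `sum_split i`; with `a b > 0` the weights and `p q > 0` the values of `V`, the difference of the two
sides is `a b / (a + b) * p q * (φ₁ / p - φ₂ / q) ^ 2`.
`Dw_flip`: `Dw_eq`, cases on `x i`.
`op_norm`: polarisation with `w = J u`: apply `abs` to `w + 2 u` and `w - 2 u` (`symm`).
`many`: `∑ i, (lf x - lf x₀) ^ 2 ≤ 4 * 4 * hd x x₀ ≤ 32 D`, so at most `128 D` sites change by more than `1 / 2`; at most
`2 D` sites differ; less than a quarter of the sites have `k < |lf x₀|`; `size`.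
`lyap`: `V = 1 + U`, `U x = 2 ^ D * (1 / 2) ^ hd x x₀`. With `p i = (1 - mw W i x * spin (x i)) / 2 ∈ [0, 1]`,
`Dw W i V x = p i * U x / 2` if `x i = x₀ i`, `= - p i * U x` otherwise; `p i ≥ 1 / 10` if `|lf| ≤ 1` (`tanh 1 ≤ 4 / 5`).
So `∑ i, Dw W i V x ≥ N / 50 * U x` for `hd ≤ 2 D` (`N / 40 - 2 D`), `≥ - N * U x` always; `U / V ≥ 1 / 2` for
`hd ≤ D`, `U / V ≤ U ≤ (1 / 2) ^ D` for `hd > 2 D`. -/

namespace Vale.Agent.P150H

open Vale.Agent.P150 Finset Function Real

noncomputable section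

variable {ι : Type} [Fintype ι] [DecidableEq ι] {J : ι → ι → ℝ} {h : ι → ℝ} {η k r c : ℝ} {D : ℕ}

theorem LyapA_two {a b p q u v : ℝ} (ha : 0 < a) (hb : 0 < b) (hp : 0 < p) (hq : 0 < q) :
    a * (u ^ 2 * ((p - (a * p + b * q) / (a + b)) / p)) +
      b * (v ^ 2 * ((q - (a * p + b * q) / (a + b)) / q)) ≤
    a * ((u - (a * u + b * v) / (a + b)) * (u - (a * u + b * v) / (a + b))) +
      b * ((v - (a * u + b * v) / (a + b)) * (v - (a * u + b * v) / (a + b))) := by
  have hab := add_pos ha hb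
  have h : 0 ≤ a * b / (a + b) * (p * q) * (u / p - v / q) ^ 2 := by positivity
  rw [← sub_nonneg]
  refine h.trans_eq ?_
  field_simp
  ring

theorem lyap_site {W V : (ι → Bool) → ℝ} (hW : ∀ x, 0 < W x) (hV : ∀ x, 0 < V x) (i : ι)
    (φ : (ι → Bool) → ℝ) :
    Ex W (fun x => φ x ^ 2 * (Dw W i V x / V x)) ≤ Ex W fun x => Dw W i φ x * Dw W i φ x := by
  refine le_of_mul_le_mul_left ?_ (two_pos (α := ℝ))
  unfold Ex
  rw [sum_split i, sum_split i]
  refine sum_le_sum fun x _ => ?_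
  simp only [Dw, Qw, update_idem]
  exact LyapA_two (hW _) (hW _) (hV _) (hV _)

omit [Fintype ι] in
theorem Dw_flip {W : (ι → Bool) → ℝ} (hW : ∀ x, 0 < W x) (i : ι) (V : (ι → Bool) → ℝ)
    (x : ι → Bool) :
    Dw W i V x = (1 - mw W i x * spin (x i)) / 2 * (V x - V (update x i (!x i))) := by
  have e : V x = V (update x i (x i)) := by rw [update_eq_self]
  rw [Dw_eq hW, e, dd]
  cases x i <;> simp only [spin_true, spin_false, Bool.not_true, Bool.not_false] <;> ring

end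

end Vale.Agent.P150H
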