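import Vale.Agent.P150H.SlepA

/-! The inequality of Slepian.
`La_le`: on `I ⊕ I'` take `E θ = Sum.elim (cos θ * e) (sin θ * e')`; `Kah_deriv` and `antitoneOn_of_deriv_nonpos` on
`[0, π / 2]` as in `La_mul` (P150S/Kah.lean): `∑ E' s * E t = sin θ cos θ (cv e' s t - cv e s t)`; the end points by
`mp_gm` (or `Kah_prod` with one factor `1`). `slepian`: apply `La_le` to `b * e`, `b * e'`, `a s = exp (-b * l s)` and let
`b = m → ∞` (dominated convergence, or Fatou): the integrand `exp (-∑ exp (b (X s - l s)))` is at most the indicator of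
`∀ s, X s ≤ l s` plus a term tending to `0`, and tends to `1` on `∀ s, Y s < l s`. Pass to complements. -/

namespace Vale.Agent.P150H

open Vale.Agent.P150 Finset Function Real MeasureTheory ProbabilityTheory Filter Topology

noncomputable section

open Vale.Agent.P150S

variable {I I' S : Type} [Fintype I] [Fintype I'] [Fintype S]

/-- The smoothed indicator. -/
def Slep_U (e : I → S → ℝ) (l : S → ℝ) (m : ℕ) (g : I → ℝ) : ℝ :=
  exp (-∑ s, exp (m * (Hf e g s - l s)))

theorem Slep_cont (e : I → S → ℝ) (l : S → ℝ) (m : ℕ) : Continuous (Slep_U e l m) := by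
  unfold Slep_U Hf
  fun_prop

theorem Slep_bd (e : I → S → ℝ) (l : S → ℝ) (m : ℕ) (g : I → ℝ) : ‖Slep_U e l m g‖ ≤ 1 := by
  unfold Slep_U
  rw [Real.norm_of_nonneg (exp_pos _).le, exp_le_one_iff, neg_nonpos]
  exact sum_nonneg fun _ _ => (exp_pos _).le

theorem Slep_int (e : I → S → ℝ) (l : S → ℝ) (m : ℕ) : Integrable (Slep_U e l m) (gm I) :=
  Integrable.of_bound (Slep_cont e l m).aestronglyMeasurable 1 (ae_of_all _ (Slep_bd e l m))

theorem Slep_La (e : I → S → ℝ) (l : S → ℝ) (m : ℕ) :
    La (fun i s => m * e i s) (fun s => exp (-(m * l s))) = ∫ g, Slep_U e l m g ∂gm I := by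
  unfold La Slep_U Zw Hf
  refine integral_congr_ae (ae_of_all _ fun g => ?_)
  refine congrArg (fun x => exp (-x)) (sum_congr rfl fun s _ => ?_)
  rw [← exp_add, mul_sub, mul_sum, neg_add_eq_sub]
  congr 2
  exact sum_congr rfl fun i _ => by ring

theorem Slep_lim (e : I → S → ℝ) (l : S → ℝ) {A : Set (I → ℝ)} (hA : MeasurableSet A) {c : ℝ}
    (h : ∀ g ∈ A, Tendsto (fun m => Slep_U e l m g) atTop (𝓝 c)) :
    Tendsto (fun m => ∫ g in A, Slep_U e l m g ∂gm I) atTop (𝓝 ((gm I).real A * c)) := by
  have := tendsto_integral_of_dominated_convergence (μ := (gm I).restrict A) (f := fun _ => c)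
    (fun _ => (1 : ℝ)) (fun m => (Slep_cont e l m).aestronglyMeasurable) (integrable_const _)
    (fun m => ae_of_all _ (Slep_bd e l m)) (ae_restrict_of_forall_mem hA h)
  simpa using this

theorem slepian {e : I → S → ℝ} {e' : I' → S → ℝ} (hv : ∀ s, cv e' s s = cv e s s)
    (hc : ∀ s t, cv e' s t ≤ cv e s t) (l : S → ℝ) :
    gm I {g | ∃ s, l s < Hf e g s} ≤ gm I' {g | ∃ s, l s ≤ Hf e' g s} := by
  have mH : ∀ {J : Type} [Fintype J] (f : J → S → ℝ) (s : S), Measurable fun g => Hf f g s := by
    intro J _ f s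
    unfold Hf
    fun_prop
  have hA : MeasurableSet {g | ∃ s, l s < Hf e g s} := by
    rw [Set.setOf_exists]
    exact MeasurableSet.iUnion fun s => measurableSet_lt measurable_const (mH e s)
  have hB : MeasurableSet {g | ∃ s, l s ≤ Hf e' g s} := by
    rw [Set.setOf_exists]
    exact MeasurableSet.iUnion fun s => measurableSet_le measurable_const (mH e' s)
  have h1 := Slep_lim e l hA (c := 0) fun g hg => by
    obtain ⟨s, hs⟩ := hg
    refine tendsto_exp_neg_atTop_nhds_zero.comp (tendsto_atTop_mono (fun m => ?_)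
      (tendsto_exp_atTop.comp (tendsto_natCast_atTop_atTop.atTop_mul_const (sub_pos.2 hs))))
    exact single_le_sum (f := fun s => exp (m * (Hf e g s - l s))) (fun _ _ => (exp_pos _).le)
      (mem_univ s)
  have h2 := Slep_lim e' l hB.compl (c := 1) fun g hg => by
    have k : ∀ s, Hf e' g s - l s < 0 := fun s => sub_neg.2 (not_le.1 fun h => hg ⟨s, h⟩)
    have k1 := tendsto_finset_sum univ fun s _ => tendsto_exp_atBot.comp
      ((tendsto_natCast_atTop_atTop (R := ℝ)).atTop_mul_const_of_neg (k s))
    have k2 := (continuous_exp.tendsto _).comp k1.neg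
    simpa [Slep_U, Function.comp_def] using k2
  have h3 : ∀ m : ℕ, ∫ g in {g | ∃ s, l s ≤ Hf e' g s}ᶜ, Slep_U e' l m g ∂gm I' ≤
      ∫ g in {g | ∃ s, l s < Hf e g s}, Slep_U e l m g ∂gm I +
        (gm I).real {g | ∃ s, l s < Hf e g s}ᶜ := by
    intro m
    have c1 : ∀ {J : Type} [Fintype J] (f : J → S → ℝ) (s t : S),
        cv (fun i s => (m : ℝ) * f i s) s t = (m : ℝ) ^ 2 * cv f s t := by
      intro J _ f s t
      unfold cv
      rw [mul_sum]
      exact sum_congr rfl fun i _ => by ring
    have k := La_le (e := fun i s => m * e i s) (e' := fun i s => m * e' i s)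
      (fun s => by rw [c1, c1, hv]) (fun s t => by
        rw [c1, c1]
        exact mul_le_mul_of_nonneg_left (hc s t) (sq_nonneg _))
      (a := fun s => exp (-(m * l s))) fun s => (exp_pos _).le
    rw [Slep_La, Slep_La, ← integral_add_compl hA (Slep_int e l m)] at k
    refine (setIntegral_le_integral (Slep_int e' l m)
      (ae_of_all _ fun g => (exp_pos _).le)).trans (k.trans (add_le_add le_rfl ?_))
    refine (integral_mono (Slep_int e l m).integrableOn (integrable_const (1 : ℝ))
      fun g => (le_abs_self _).trans (Slep_bd e l m g)).trans ?_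
    simp
  have h4 := le_of_tendsto_of_tendsto' h2 (h1.add_const _) h3
  rw [probReal_compl_eq_one_sub hA, probReal_compl_eq_one_sub hB] at h4
  refine (ENNReal.toReal_le_toReal (measure_ne_top _ _) (measure_ne_top _ _)).1 ?_
  simp only [Measure.real] at h4
  linarith

end

end Vale.Agent.P150H
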