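import Vale.Agent.P150H.D
import Vale.Agent.P150S.Kah

/-! The inequality of Slepian.
`La_le`: on `I ⊕ I'` take `E θ = Sum.elim (cos θ * e) (sin θ * e')`; `Kah_deriv` and `antitoneOn_of_deriv_nonpos` on
`[0, π / 2]` as in `La_mul` (P150S/Kah.lean): `∑ E' s * E t = sin θ cos θ (cv e' s t - cv e s t)`; the end points by
`mp_gm` (or `Kah_prod` with one factor `1`). `slepian`: apply `La_le` to `b * e`, `b * e'`, `a s = exp (-b * l s)` and let
`b = m → ∞` (dominated convergence, or Fatou): the integrand `exp (-∑ exp (b (X s - l s)))` is at most the indicator of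
`∀ s, X s ≤ l s` plus a term tending to `0`, and tends to `1` on `∀ s, Y s < l s`. Pass to complements. -/

namespace Vale.Agent.P150H

open Vale.Agent.P150 Finset Function Real MeasureTheory ProbabilityTheory Filter Topology

noncomputable section

open Vale.Agent.P150S

variable {I I' S : Type} [Fintype I] [Fintype I'] [Fintype S]

/-- the interpolating field -/
def slepE (e : I → S → ℝ) (e' : I' → S → ℝ) (c s : ℝ) : I ⊕ I' → S → ℝ
  | .inl i, x => c * e i x
  | .inr i, x => s * e' i x

theorem slep_prod (F : (I → ℝ) → ℝ) (G : (I' → ℝ) → ℝ) :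
    ∫ ω, F (fun i => ω (.inl i)) * G (fun i => ω (.inr i)) ∂gm (I ⊕ I') =
      (∫ g, F g ∂gm I) * ∫ g, G g ∂gm I' := by
  rw [← integral_prod_mul]
  exact (measurePreserving_sumPiEquivProdPi fun _ : I ⊕ I' => gaussianReal 0 1).integral_comp'
    fun p => F p.1 * G p.2

omit [Fintype S] in
theorem slep_sum (e : I → S → ℝ) (e' : I' → S → ℝ) (θ : ℝ) (s t : S) :
    ∑ i, slepE e e' (-sin θ) (cos θ) i s * slepE e e' (cos θ) (sin θ) i t =
      sin θ * cos θ * (cv e' s t - cv e s t) := by
  simp only [Fintype.sum_sum_type, slepE, cv, mul_sub, mul_sum]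
  rw [sub_eq_neg_add, ← sum_neg_distrib]
  exact congrArg₂ _ (sum_congr rfl fun i _ => by ring) (sum_congr rfl fun i _ => by ring)

theorem La_le {e : I → S → ℝ} {e' : I' → S → ℝ} (hv : ∀ s, cv e' s s = cv e s s)
    (hc : ∀ s t, cv e' s t ≤ cv e s t) {a : S → ℝ} (ha : ∀ s, 0 ≤ a s) : La e' a ≤ La e a := by
  choose D hD hD0 using Kah_deriv ha (E := fun θ => slepE e e' (cos θ) (sin θ))
    (E' := fun θ => slepE e e' (-sin θ) (cos θ))
    (K := fun i s => |Sum.elim e e' i s|)
    (fun θ i s => by
      rcases i with i | i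
      · exact (hasDerivAt_cos θ).mul_const _
      · exact (hasDerivAt_sin θ).mul_const _)
    fun θ i s => by
      rcases i with i | i <;>
        simp only [slepE, abs_mul, abs_neg, Sum.elim_inl, Sum.elim_inr]
      · exact mul_le_of_le_one_left (abs_nonneg _) (abs_sin_le_one θ)
      · exact mul_le_of_le_one_left (abs_nonneg _) (abs_cos_le_one θ)
  have h1 := antitoneOn_of_deriv_nonpos (convex_Icc 0 (π / 2))
    (f := fun θ => La (slepE e e' (cos θ) (sin θ)) a)
    (fun θ _ => (hD θ).continuousAt.continuousWithinAt)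
    (fun θ _ => (hD θ).differentiableAt.differentiableWithinAt) (fun θ hθ => by
      rw [(hD θ).deriv]
      have h2 := interior_subset hθ
      have h3 := sin_nonneg_of_nonneg_of_le_pi h2.1 (h2.2.trans (half_le_self pi_pos.le))
      have h4 := cos_nonneg_of_neg_pi_div_two_le_of_le
        ((neg_nonpos.2 pi_div_two_pos.le).trans h2.1) h2.2
      refine hD0 θ (fun s => ?_) fun s t => ?_
      · rw [slep_sum, hv s, sub_self, mul_zero]
      · rw [slep_sum]
        exact mul_nonpos_of_nonneg_of_nonpos (mul_nonneg h3 h4) (sub_nonpos.2 (hc s t)))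
    (Set.left_mem_Icc.2 pi_div_two_pos.le) (Set.right_mem_Icc.2 pi_div_two_pos.le)
    pi_div_two_pos.le
  simp only [cos_zero, sin_zero, cos_pi_div_two, sin_pi_div_two] at h1
  refine le_of_eq_of_le ?_ (h1.trans_eq ?_)
  · have h2 := slep_prod (I := I) (fun _ => 1) fun g => exp (-Zw e' a g)
    rw [integral_const, probReal_univ, one_smul, one_mul] at h2
    refine Eq.trans h2.symm ?_
    refine integral_congr_ae (ae_of_all _ fun ω => ?_)
    simp [Zw, Hf, slepE]
  · have h2 := slep_prod (I' := I') (fun g => exp (-Zw e a g)) fun _ => 1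
    rw [integral_const, probReal_univ, one_smul, mul_one] at h2
    refine Eq.trans ?_ h2
    refine integral_congr_ae (ae_of_all _ fun ω => ?_)
    simp [Zw, Hf, slepE]

end

end Vale.Agent.P150H
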