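import Vale.Agent.P150H.D

/-! Approximate tensorisation from Poincare inequalities along the ray. -/

set_option linter.all false

namespace Vale.Agent.P150H

open Vale.Agent.P150 Finset Function Real

noncomputable section

variable {ι : Type} [Fintype ι] [DecidableEq ι] {J : ι → ι → ℝ} {h : ι → ℝ} {η k r c : ℝ} {D : ℕ}

/-- The Poincare inequality, uniformly in the field. -/
structure TenP (J : ι → ι → ℝ) (η : ℝ) : Prop where
  pos : 0 < η
  poincare : ∀ (h : ι → ℝ) {g : (ι → Bool) → ℝ}, Ex (isw J h) g = 0 →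
    η / 2 * Ex (isw J h) (fun x => g x ^ 2) ≤ Dir (isw J h) g

variable {f : (ι → Bool) → ℝ}

lemma TenP.mgf (hJ : TenP J η) (h θ : ι → ℝ) :
    Ex (isw J h) (fun x => exp (∑ i, θ i * spin (x i) - av (isw J h) (fun x => ∑ i, θ i * spin (x i)) -
      2 / η * (∑ i, θ i ^ 2) / 2)) ≤ ∑ x, isw J h x := by
  refine mgf_le (isw_pos J h) _ fun r => ?_
  have e : (fun x => isw J h x * exp (r * ∑ i, θ i * spin (x i))) = isw J fun i => h i + r * θ i := by
    funext x
    simp only [isw, en, ← exp_add, add_mul, sum_add_distrib, mul_sum, mul_assoc, add_assoc]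
  have hW := isw_pos J fun i => h i + r * θ i
  rw [show ∑ x, isw J h x * exp (r * ∑ i, θ i * spin (x i)) = ∑ x, isw J (fun i => h i + r * θ i) x
    by rw [← e], e]
  set W := isw J fun i => h i + r * θ i
  refine ⟨av W fun x => ∑ i, θ i * spin (x i), ?_⟩
  have h1 := hJ.poincare (fun i => h i + r * θ i)
    (g := fun x => ∑ i, θ i * spin (x i) - av W fun x => ∑ i, θ i * spin (x i))
    (by rw [Ex_sub, Ex_const, Ex_eq_av hW, sub_self])
  have h2 : Dir W (fun x => ∑ i, θ i * spin (x i) - av W fun x => ∑ i, θ i * spin (x i)) ≤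
      (∑ i, θ i ^ 2) * ∑ x, W x := by
    rw [Dir, sum_mul]
    refine sum_le_sum fun i _ => ?_
    rw [Ex_Dw_sq hW, ← Ex_const]
    refine Ex_mono hW fun x => ?_
    have e1 : dd i (fun x => ∑ i, θ i * spin (x i) - av W fun x => ∑ i, θ i * spin (x i)) x = θ i := by
      rw [dd, sub_sub_sub_cancel_right, ← sum_sub_distrib, sum_eq_single i]
      · simp
      · intro j _ hj
        simp [update_of_ne hj]
      · simp
    rw [e1]
    exact mul_le_of_le_one_left (sq_nonneg _) (by nlinarith [sq_nonneg (mw W i x)])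
  have hη := hJ.pos
  rw [mul_assoc, div_mul_eq_mul_div, le_div_iff₀ hη]
  linarith

/-- Entropic stability. -/
lemma TenP.stab (hJ : TenP J η) (h : ι → ℝ) (hf : ∀ x, 0 < f x) :
    ∑ i, Ex (isw J h) (fun x => (f x - av (isw J h) f) * spin (x i)) ^ 2 ≤
      4 / η * (av (isw J h) f * ∑ x, isw J h x) * Ent (isw J h) f := by
  have hW := isw_pos J h
  have hη := hJ.pos
  have hZ := sumW_pos hW
  have ha := av_pos hW hf
  set W := isw J h
  obtain ⟨δ, hδ⟩ : ∃ δ : ι → ℝ, ∀ i, δ i = Ex W fun x => (f x - av W f) * spin (x i) :=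
    ⟨_, fun _ => rfl⟩
  obtain ⟨l, hl⟩ : ∃ l : ℝ, l = η / (2 * (av W f * ∑ x, W x)) := ⟨_, rfl⟩
  have h1 := dv hW hf (hJ.mgf h fun i => l * δ i)
  have e1 : Ex W (fun x => f x * ∑ i, l * δ i * spin (x i)) -
      av W f * Ex W (fun x => ∑ i, l * δ i * spin (x i)) = l * ∑ i, δ i ^ 2 := by
    have e0 : ∀ i, l * δ i ^ 2 = Ex W fun x => l * δ i * ((f x - av W f) * spin (x i)) := fun i => by
      rw [Ex_mul, ← hδ]; ring
    rw [← Ex_mul, ← Ex_sub, mul_sum]
    simp only [e0, ← Ex_sum]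
    refine Ex_congr fun x => ?_
    rw [← sub_mul, mul_sum]
    exact sum_congr rfl fun i _ => by ring
  obtain ⟨m, hm⟩ : ∃ m, m = av W fun x => ∑ i, l * δ i * spin (x i) := ⟨_, rfl⟩
  have e3 : ∑ i, (l * δ i) ^ 2 = l ^ 2 * ∑ i, δ i ^ 2 := by simp only [mul_pow, mul_sum]
  rw [← hm, e3] at h1
  have e4 : ∀ x c, f x * (∑ i, l * δ i * spin (x i) - m - c) =
      f x * ∑ i, l * δ i * spin (x i) - (m + c) * f x := fun x c => by ring
  simp only [e4, Ex_sub, Ex_mul] at h1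
  simp only [← hδ]
  rw [Ex_eq_av hW f] at h1
  rw [Ex_eq_av hW fun x => ∑ i, l * δ i * spin (x i), ← hm] at e1
  have e2 : l * ∑ i, δ i ^ 2 - 2 / η * (l ^ 2 * ∑ i, δ i ^ 2) / 2 * (av W f * ∑ x, W x) =
      (∑ i, δ i ^ 2) / (4 / η * (av W f * ∑ x, W x)) := by
    rw [hl]; field_simp; ring
  rw [mul_comm, ← div_le_iff₀ (by positivity), ← e2]
  linarith

lemma Poi.step [Nonempty ι] (hJ : Poi J η) {Λ L : ℝ} (hL : 0 ≤ L) {B : ι → ι → ℝ}
    (hB : ∀ u : ι → ℝ,
      ∑ k, (∑ i, B k i * u i) ^ 2 = ∑ i, ∑ j, J i j * u i * u j + Λ * ∑ i, u i ^ 2)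
    (hB' : ∀ u : ι → ℝ, ∑ k, (∑ i, B k i * u i) ^ 2 ≤ L * ∑ i, u i ^ 2)
    {s ε γ A : ℝ} (hε : 0 ≤ ε) (hs0 : 0 ≤ s) (hs : s + ε ≤ 1) (hγ0 : 0 ≤ γ) (hγ : γ ≤ 1 / 10)
    (hεγ : ε * (Fintype.card ι) ^ 2 * L ≤ γ ^ 2) (hd : 8 * ε * L / η ≤ 1 / 4)
    (hA : 0 ≤ A) (hAT : ∀ h, AT (isw (fun i j => s * J i j) h) A) (h : ι → ℝ) :
    AT (isw (fun i j => (s + ε) * J i j) h)
      (exp (2 * (8 * ε * L / η + 2 * γ ^ 4)) * (exp (2 * (17 * γ ^ 3)) * A)) := by
  have hη := hJ.pos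
  have hJ' : TenP (fun i j => (s + ε) * J i j) η := ⟨hη, hJ.poi _ (add_nonneg hs0 hε) hs⟩
  have hW := isw_pos (fun i j => (s + ε) * J i j) h
  obtain ⟨N, hN⟩ : ∃ N : ℝ, N = Fintype.card ι := ⟨_, rfl⟩
  have hN1 : 1 ≤ N := by rw [hN]; exact_mod_cast Fintype.card_pos
  rw [← hN] at hεγ
  obtain ⟨t, ht⟩ : ∃ t : ℝ, t ^ 2 = ε * N := ⟨√(ε * N), sq_sqrt (by positivity)⟩
  obtain ⟨a, ha⟩ : ∃ a : ι → (ι → Bool) → ℝ, ∀ k x, a k x = t * ∑ i, B k i * spin (x i) :=
    ⟨_, fun _ _ => rfl⟩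
  obtain ⟨q, hq⟩ : ∃ q : (ι → Bool) → ℝ, ∀ x, q x = (∑ k, a k x ^ 2) / (2 * N) := ⟨_, fun _ => rfl⟩
  have e1 : ∀ x : ι → Bool, ∑ i, spin (x i) ^ 2 = N := fun x => by simp [spin_sq, hN]
  have a1 : ∀ x, ∑ k, a k x ^ 2 ≤ γ ^ 2 := fun x => by
    simp only [ha, mul_pow, ← mul_sum, ht]
    have := mul_le_mul_of_nonneg_left (hB' fun i => spin (x i)) (by positivity : 0 ≤ ε * N)
    rw [e1] at this
    linarith
  have a2 : ∀ k x, |a k x| ≤ γ := fun k x => abs_le_of_sq_le_sq' ((single_le_sum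
    (f := fun k => a k x ^ 2) (fun _ _ => sq_nonneg _) (mem_univ k)).trans (a1 x)) hγ0 |> abs_le.2
  have q0 : ∀ x, 0 ≤ q x := fun x => by rw [hq]; positivity
  have q1 : ∀ x, q x ≤ γ ^ 2 / 2 := fun x => by
    rw [hq, div_le_div_iff₀ (by positivity) two_pos]
    nlinarith [a1 x, sq_nonneg γ]
  have q2 : ∀ x, q x = ε * (∑ i, ∑ j, J i j * spin (x i) * spin (x j)) / 2 + ε * Λ * N / 2 :=
    fun x => by
      simp only [hq, ha, mul_pow, ← mul_sum, ht, hB, e1]
      field_simp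
  have est := fun (z : ι × Bool) x => log_est (spin_or z.2) (a2 z.1 x) (q0 x) (q1 x) hγ
  refine AT_step (κ := ι × Bool) hW
    (k := fun z x => (1 + (spin z.2 * a z.1 x + (a z.1 x ^ 2 / 2 - q x))) / (2 * N))
    (fun z x => div_pos (by linarith [(est z x).1]) (by positivity)) (fun x => ?_)
    (c := 1 / 2 / (2 * N)) (by positivity) (by nlinarith [pow_le_pow_left₀ hγ0 hγ 4])
    (by positivity) (by positivity)
    (fun z x => div_le_div_of_nonneg_right (est z x).1 (by positivity)) (fun z => ?_) fun f hf => ?_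
  · simp only [Fintype.sum_prod_type, Fintype.sum_bool, spin_true, spin_false, ← add_div, ← sum_div]
    rw [div_eq_one_iff_eq (by positivity)]
    have e : ∀ k, 1 + (1 * a k x + (a k x ^ 2 / 2 - q x)) + (1 + (-1 * a k x + (a k x ^ 2 / 2 - q x))) =
        a k x ^ 2 + (2 - 2 * q x) := fun k => by ring
    simp only [e, sum_add_distrib, sum_const, card_univ, nsmul_eq_mul, ← hN]
    rw [hq]
    field_simp
    ring
  · refine (hAT fun i => h i + spin z.2 * t * B z.1 i).near (isw_pos _ _)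
      (fun x => mul_pos (hW x) (div_pos (by linarith [(est z x).1]) (by positivity))) hA
      (c := -(ε * Λ * N / 2) - log (2 * N)) fun x => ?_
    refine le_of_eq_of_le (congrArg _ ?_) (est z x).2
    rw [log_mul (hW x).ne' (div_pos (by linarith [(est z x).1]) (by positivity)).ne',
      log_div (by linarith [(est z x).1]) (by positivity), isw, isw, log_exp, log_exp]
    have e2 : ∑ i, (h i + spin z.2 * t * B z.1 i) * spin (x i) =
        ∑ i, h i * spin (x i) + spin z.2 * a z.1 x := by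
      simp only [ha, mul_sum, add_mul, sum_add_distrib, mul_assoc]
    have e3 := q2 x
    simp only [en, e2]
    simp only [mul_assoc, ← mul_sum] at e3 ⊢
    linarith
  · have h1 := hJ'.stab h hf
    have h2 := pinsker hW hf
    have hE := Ent_nonneg hW hf
    have hZ := mul_pos (av_pos hW hf) (sumW_pos hW)
    set W := isw (fun i j => (s + ε) * J i j) h
    obtain ⟨δ, hδ⟩ : ∃ δ : ι → ℝ, ∀ i, δ i = Ex W fun x => (f x - av W f) * spin (x i) :=
      ⟨_, fun _ => rfl⟩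
    obtain ⟨Y, hY⟩ : ∃ Y : ι → ℝ, ∀ k, Y k = Ex W fun x => (f x - av W f) * (a k x ^ 2 / 2 - q x) :=
      ⟨_, fun _ => rfl⟩
    simp only [← hδ] at h1
    have e2 : ∀ k b, Ex W (fun x => (f x - av W f) *
        ((1 + (spin b * a k x + (a k x ^ 2 / 2 - q x))) / (2 * N))) =
        (spin b * (t * ∑ i, B k i * δ i) + Y k) / (2 * N) := fun k b => by
      have e3 : Ex W (fun x => f x - av W f) = 0 := by rw [Ex_sub, Ex_const, Ex_eq_av hW, sub_self]
      simp only [hδ, hY, ← Ex_mul, ← Ex_sum]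
      rw [← Ex_add, ← zero_add (_ / (2 * N)), ← mul_zero (2 * N)⁻¹, ← e3, div_eq_inv_mul (Ex _ _),
        ← Ex_mul, ← Ex_mul, ← Ex_add]
      refine Ex_congr fun x => ?_
      simp only [ha, mul_left_comm (B _ _), ← mul_sum]
      ring
    have y1 : ∀ k, Y k ^ 2 ≤ γ ^ 4 * ((av W f * ∑ x, W x) * Ent W f) := fun k => by
      have b1 : |Y k| ≤ γ ^ 2 / 2 * Ex W fun x => |f x - av W f| := by
        rw [hY, ← Ex_mul]
        refine (abs_sum_le_sum_abs _ _).trans (sum_le_sum fun x _ => ?_)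
        rw [abs_mul, abs_of_pos (hW x), abs_mul, mul_comm |_|]
        refine mul_le_mul_of_nonneg_left (mul_le_mul_of_nonneg_right ?_ (abs_nonneg _)) (hW x).le
        have := pow_le_pow_left₀ (abs_nonneg _) (a2 k x) 2
        rw [sq_abs] at this
        exact abs_le.2 ⟨by nlinarith [sq_nonneg (a k x), q1 x], by linarith [q0 x]⟩
      have b2 := pow_le_pow_left₀ (abs_nonneg _) b1 2
      rw [sq_abs, mul_pow] at b2
      nlinarith [mul_le_mul_of_nonneg_left h2 (sq_nonneg (γ ^ 2 / 2))]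
    have y2 : ∑ k, Y k ^ 2 ≤ N * (γ ^ 4 * ((av W f * ∑ x, W x) * Ent W f)) := by
      have := sum_le_sum fun k (_ : k ∈ univ) => y1 k
      rwa [sum_const, card_univ, nsmul_eq_mul, ← hN] at this
    have y3 : ∑ k, (t * ∑ i, B k i * δ i) ^ 2 ≤
        ε * N * (L * (4 / η * (av W f * ∑ x, W x) * Ent W f)) := by
      simp only [mul_pow, ← mul_sum, ht]
      exact mul_le_mul_of_nonneg_left ((hB' δ).trans (mul_le_mul_of_nonneg_left h1 (by positivity)))
        (by positivity)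
    have e4 : ∀ k, ((1 * (t * ∑ i, B k i * δ i) + Y k) / (2 * N)) ^ 2 +
        ((-1 * (t * ∑ i, B k i * δ i) + Y k) / (2 * N)) ^ 2 =
        ((t * ∑ i, B k i * δ i) ^ 2 + Y k ^ 2) / (2 * N ^ 2) := fun k => by field_simp; ring
    simp only [Fintype.sum_prod_type, e2, Fintype.sum_bool, spin_true, spin_false, e4, ← sum_div,
      sum_add_distrib]
    rw [div_le_iff₀ (by positivity)]
    refine (add_le_add y3 y2).trans_eq ?_
    field_simp
    ring

theorem Poi.at0 [Nonempty ι] (hJ : Poi J η) {Λ L : ℝ} (hL : 1 ≤ L)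
    (hl : ∀ u : ι → ℝ, -(Λ * ∑ i, u i ^ 2) ≤ ∑ i, ∑ j, J i j * u i * u j)
    (hu : ∀ u : ι → ℝ, ∑ i, ∑ j, J i j * u i * u j + Λ * ∑ i, u i ^ 2 ≤ L * ∑ i, u i ^ 2)
    (h : ι → ℝ) :
    AT (isw J h) (exp (16 * L / η + 1)) := by
  have hη := hJ.pos
  have hL0 : 0 ≤ L := zero_le_one.trans hL
  obtain ⟨B, hB⟩ := exists_root hJ.symm hl
  obtain ⟨K, hK⟩ : ∃ K : ℝ, K = (Fintype.card ι) ^ 2 * L := ⟨_, rfl⟩
  have hK1 : 1 ≤ K := by
    have : (1 : ℝ) ≤ Fintype.card ι := by exact_mod_cast Fintype.card_pos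
    rw [hK]; nlinarith [one_le_pow₀ this (n := 2)]
  obtain ⟨M, hM⟩ := exists_nat_ge (max (38 ^ 2 * K ^ 3) (32 * L / η))
  have hM1 := (le_max_left _ _).trans hM
  have hM2 := (le_max_right _ _).trans hM
  have hM0 : (0 : ℝ) < M := lt_of_lt_of_le (by positivity) hM1
  obtain ⟨γ, hγ0, hγ⟩ : ∃ γ : ℝ, 0 ≤ γ ∧ γ ^ 2 = K / M := ⟨√(K / M), sqrt_nonneg _,
    sq_sqrt (by positivity)⟩
  have g1 : 38 * K * γ ≤ 1 := by
    refine (pow_le_one_iff_of_nonneg (by positivity) two_ne_zero).1 ?_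
    rw [mul_pow, hγ, ← mul_div_assoc, div_le_one hM0]
    linarith
  have g2 : γ ≤ 1 / 10 := by nlinarith
  obtain ⟨D, hD⟩ : ∃ D, D = 2 * (8 * (1 / M) * L / η + 2 * γ ^ 4) + 2 * (17 * γ ^ 3) :=
    ⟨_, rfl⟩
  have key : ∀ m : ℕ, m ≤ M → ∀ h, AT (isw (fun i j => (m / M : ℝ) * J i j) h) (exp (m * D)) := by
    intro m
    induction m with
    | zero => intro _ h; simpa only [Nat.cast_zero, zero_div, zero_mul, exp_zero] using AT_zero J h
    | succ m ih =>
      intro hm h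
      have := hJ.step hL0 hB (fun u => (hB u).trans_le (hu u)) (s := m / M) (ε := 1 / M) (by positivity) (by positivity)
        (by rw [← add_div, div_le_one hM0]; exact_mod_cast hm) hγ0 g2
        (by rw [hγ, hK, mul_assoc, one_div_mul_eq_div])
        (by rw [div_le_iff₀ hη] at hM2 ⊢
            rw [mul_one_div, div_mul_eq_mul_div, div_le_iff₀ hM0]; linarith)
        (exp_pos _).le (ih (Nat.le_of_succ_le hm)) h
      rw [← exp_add, ← exp_add, ← add_assoc, ← hD, ← add_div] at this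
      rwa [Nat.cast_succ, add_mul, one_mul, add_comm _ D]
  have := key M le_rfl h
  simp only [div_self hM0.ne', one_mul] at this
  refine this.mono (isw_pos J h) (exp_le_exp.2 ?_)
  have e : M * D = 16 * L / η + (M * γ ^ 2) * (4 * γ ^ 2 + 34 * γ) := by
    rw [hD]; field_simp; ring
  rw [e, hγ, mul_div_cancel₀ _ hM0.ne', ← hγ]
  nlinarith [mul_nonneg (zero_le_one.trans hK1) hγ0]

theorem Poi.at [Nonempty ι] (hJ : Poi J c) (h : ι → ℝ) : AT (isw J h) (exp (64 / c + 1)) := by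
  have := hJ.at0 (Λ := 2) (L := 4) (by norm_num) (fun u => (abs_le.1 (hJ.abs u)).1)
    (fun u => by linarith [(abs_le.1 (hJ.abs u)).2]) h
  rwa [show (16 * 4 : ℝ) = 64 by norm_num] at this

end

end Vale.Agent.P150H
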