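import Vale.Agent.P150H.VecA

/-! The vector side of the comparison. `mass_le`: union bound over `S` (`union_le`, `2 ^ n` sets), `small_ball` with `κ = S`,
`a p i = if p = i then 1 else 0`, `σ = 1`, `l = 10 ^ 9`: `exp n / 44000 ^ S.card ≤ (1 / 4) ^ n` because
`(4 * exp 1) ^ 4 ≤ 44000` and `n ≤ 4 * S.card`.
`vec_det`: put `a = √(∑ S, g²) / √n`, `b` the same for the complement, `p = √(∑ S, u²)`, `q`; Cauchy-Schwarz on `S` and `Sᶜ`;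
`2 a p + 2 b q ≤ a² + b² + 1 - (a - p)²`; if `p² ≥ ρ / 4` use `κ p² ≥ κ ρ / 4`, else `(a - p)² ≥ ρ / 4 ≥ κ ρ / 4`. -/

namespace Vale.Agent.P150H

open Vale.Agent.P150 Finset Function Real MeasureTheory ProbabilityTheory Filter Topology

noncomputable section

theorem vec_aux {a b p q ε ρ κ : ℝ} (hρ : 0 ≤ ρ) (h0 : 0 ≤ κ) (h1 : κ ≤ 1)
    (hab : a ^ 2 + b ^ 2 < 1 + ε) (ha : ρ ≤ a ^ 2) (hpq : p ^ 2 + q ^ 2 = 1) :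
    2 * (a * p + b * q) < 2 + ε - κ * ρ / 4 + κ * p ^ 2 := by
  have e1 : κ * ρ ≤ κ * a ^ 2 := mul_le_mul_of_nonneg_left ha h0
  have e2 : 0 ≤ (1 - κ) * (a - p) ^ 2 := mul_nonneg (sub_nonneg.2 h1) (sq_nonneg _)
  have e3 : 0 ≤ κ * (a - 2 * p) ^ 2 := mul_nonneg h0 (sq_nonneg _)
  have e4 : 0 ≤ (b - q) ^ 2 := sq_nonneg _
  have e5 : 0 ≤ κ * ρ := mul_nonneg h0 hρ
  linarith

theorem vec_det {n : ℕ} (hn : 0 < n) {ε ρ κ : ℝ} (hρ : 0 ≤ ρ) (h0 : 0 ≤ κ) (h1 : κ ≤ 1)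
    {g u : Fin n → ℝ} (S : Finset (Fin n)) (hg : ∑ i, g i ^ 2 < (1 + ε) * n)
    (hS : ρ * n ≤ ∑ i ∈ S, g i ^ 2) (hu : ∑ i, u i ^ 2 = 1) :
    2 * ∑ i, g i * u i < √n * (2 + ε - κ * ρ / 4 + κ * ∑ i ∈ S, u i ^ 2) := by
  have hn' : (0 : ℝ) < n := Nat.cast_pos.2 hn
  obtain ⟨s, hs⟩ : ∃ s : ℝ, s = √n := ⟨_, rfl⟩
  have hs0 : 0 < s := hs ▸ Real.sqrt_pos.2 hn'
  have hs2 : s ^ 2 = n := hs ▸ Real.sq_sqrt hn'.le
  have c1 := Real.sum_mul_le_sqrt_mul_sqrt S g u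
  have c2 := Real.sum_mul_le_sqrt_mul_sqrt Sᶜ g u
  have q1 : √(∑ i ∈ S, g i ^ 2) ^ 2 = ∑ i ∈ S, g i ^ 2 :=
    Real.sq_sqrt (Finset.sum_nonneg fun i _ => sq_nonneg _)
  have q2 : √(∑ i ∈ Sᶜ, g i ^ 2) ^ 2 = ∑ i ∈ Sᶜ, g i ^ 2 :=
    Real.sq_sqrt (Finset.sum_nonneg fun i _ => sq_nonneg _)
  have q3 : √(∑ i ∈ S, u i ^ 2) ^ 2 = ∑ i ∈ S, u i ^ 2 :=
    Real.sq_sqrt (Finset.sum_nonneg fun i _ => sq_nonneg _)
  have q4 : √(∑ i ∈ Sᶜ, u i ^ 2) ^ 2 = ∑ i ∈ Sᶜ, u i ^ 2 :=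
    Real.sq_sqrt (Finset.sum_nonneg fun i _ => sq_nonneg _)
  rw [← Finset.sum_add_sum_compl S, ← q1, ← q2] at hg
  rw [← Finset.sum_add_sum_compl S, ← q3, ← q4] at hu
  rw [← q1] at hS
  rw [← Finset.sum_add_sum_compl S (fun i => g i * u i), ← hs, ← q3]
  generalize √(∑ i ∈ S, g i ^ 2) = A at *
  generalize √(∑ i ∈ Sᶜ, g i ^ 2) = B at *
  generalize √(∑ i ∈ S, u i ^ 2) = p at *
  generalize √(∑ i ∈ Sᶜ, u i ^ 2) = q at *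
  have hab : (A / s) ^ 2 + (B / s) ^ 2 < 1 + ε := by
    rw [div_pow, div_pow, ← add_div, hs2, div_lt_iff₀ hn']
    exact hg
  have ha : ρ ≤ (A / s) ^ 2 := by
    rw [div_pow, hs2, le_div_iff₀ hn']
    exact hS
  have key := mul_lt_mul_of_pos_left (vec_aux hρ h0 h1 hab ha hu) hs0
  have e : s * (2 * (A / s * p + B / s * q)) = 2 * (A * p + B * q) := by
    field_simp
  rw [e] at key
  linarith

end

end Vale.Agent.P150H
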