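import Vale.Agent.P150H.Slep
import Vale.Agent.P150H.Vec

/-! The top of the spectrum. `top_fin`: `slepian` with `I = Pair n ⊕ (Fin n ⊕ Unit)`, `e (inl p) s = 2 * u s p.1.1 * u s p.1.2`,
`e (inr (inl i)) s = √2 * u s i ^ 2`, `e (inr (inr _)) s = √2`, `e' i s = 2 * u s i`: `cv e s t = 2 (u s · u t)² + 2 ≥ 4 (u s · u t) = cv e' s t`
(`sum_pairs`); thresholds `l s = √n * (2 + ε - κ ρ / 4 + κ ∑ i ∈ T s, u s i ^ 2)`; the right side by `chi_sum univ`, `mass_le`,
`vec_det`. The projection `ω ↦ ω ∘ inl` preserves `gm` (`mp_gm`; the event is open); outside the events `chi_one` the two extra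
terms are at least `-√2 ε √n` each (`quad_eq`).
`top_le`: a sequence `v m` dense in the unit sphere `{u | ∑ u i ^ 2 = 1}` (`TopologicalSpace.denseSeq` of the subtype); the bad
event is the increasing union over `M` of the events for `(T, m)`, `m < M` (continuity in `u`, homogeneity);
`measure_iUnion_eq_iSup` / `Monotone.measure_iUnion`. -/

namespace Vale.Agent.P150H

open Vale.Agent.P150 Finset Function Real MeasureTheory ProbabilityTheory Filter Topology

noncomputable section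

/-- The improved upper bound. -/
def Topb {n : ℕ} (ε κ : ℝ) (g : Pair n → ℝ) : Prop :=
  ∀ S : Finset (Fin n), n ≤ 4 * S.card → ∀ u : Fin n → ℝ, ∑ i, ∑ j, gsym g i j * u i * u j ≤
    √n * ((2 + 5 * ε - κ / (4 * 10 ^ 9)) * ∑ i, u i ^ 2 + κ * ∑ i ∈ S, u i ^ 2)

theorem TopA_sq {n : ℕ} (a : Fin n → ℝ) :
    (∑ i, a i) ^ 2 = ∑ p : Pair n, 2 * (a p.1.1 * a p.1.2) + ∑ i, a i ^ 2 := by
  have h := sum_pairs (fun i j => a i * a j - if i = j then a i ^ 2 else 0) fun i => by simp [sq]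
  simp only [sum_sub_distrib, sum_ite_eq, mem_univ, if_true] at h
  rw [sq, sum_mul_sum, ← sub_eq_iff_eq_add, h]
  refine sum_congr rfl fun p _ => ?_
  rw [if_neg p.2.ne, if_neg p.2.ne']
  ring

/-- The coefficients of the matrix side. -/
def TopAe {n : ℕ} {S : Type} (u : S → Fin n → ℝ) : Pair n ⊕ (Fin n ⊕ Unit) → S → ℝ :=
  Sum.elim (fun p s => 2 * (u s p.1.1 * u s p.1.2))
    (Sum.elim (fun i s => √2 * u s i ^ 2) fun _ _ => √2)

theorem TopA_cv {n : ℕ} {S : Type} [Fintype S] (u : S → Fin n → ℝ) (s t : S) :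
    P150S.cv (TopAe u) s t = 2 * (∑ i, u s i * u t i) ^ 2 + 2 := by
  have h2 : √2 * √2 = 2 := mul_self_sqrt two_pos.le
  simp only [P150S.cv, TopAe, Fintype.sum_sum_type, Sum.elim_inl, Sum.elim_inr, univ_unique,
    sum_singleton, h2]
  rw [TopA_sq, mul_add, mul_sum, mul_sum, add_assoc]
  congr 1
  · exact sum_congr rfl fun p _ => by ring
  · congr 1
    refine sum_congr rfl fun i _ => ?_
    linear_combination (u s i ^ 2 * u t i ^ 2) * h2

theorem TopA_cv' {n : ℕ} {S : Type} [Fintype S] (u : S → Fin n → ℝ) (s t : S) :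
    P150S.cv (fun i s => 2 * u s i) s t = 4 * ∑ i, u s i * u t i := by
  rw [P150S.cv, mul_sum]
  exact sum_congr rfl fun i _ => by ring

theorem TopA_mp (α β : Type) [Fintype α] [Fintype β] :
    MeasurePreserving (fun (ω : α ⊕ β → ℝ) (a : α) => ω (Sum.inl a)) (gm (α ⊕ β)) (gm α) :=
  mp_gm (by fun_prop) fun θ => ⟨Sum.elim θ 0, fun x => by simp, by simp⟩

theorem top_fin {n : ℕ} (hn : 0 < n) {ε κ : ℝ} (e0 : 0 < ε) (e1 : ε ≤ 1) (h0 : 0 ≤ κ) (h1 : κ ≤ 1)
    {S : Type} [Fintype S] (u : S → Fin n → ℝ) (hu : ∀ s, ∑ i, u s i ^ 2 = 1)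
    (T : S → Finset (Fin n)) (hT : ∀ s, n ≤ 4 * (T s).card) :
    gm (Pair n) {g | ∃ s, √n * (2 + 5 * ε - κ / (4 * 10 ^ 9) + κ * ∑ i ∈ T s, u s i ^ 2) <
      ∑ i, ∑ j, gsym g i j * u s i * u s j} ≤ (n + 2) * tl ε n + ENNReal.ofReal ((1 / 2) ^ n) := by
  have hm : MeasurableSet {g : Pair n → ℝ | ∃ s,
      √n * (2 + 5 * ε - κ / (4 * 10 ^ 9) + κ * ∑ i ∈ T s, u s i ^ 2) <
      ∑ i, ∑ j, gsym g i j * u s i * u s j} := by
    refine IsOpen.measurableSet ?_
    simp only [quad_eq, Set.setOf_exists]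
    exact isOpen_iUnion fun s => isOpen_lt (by fun_prop) (by fun_prop)
  rw [← (TopA_mp (Pair n) (Fin n ⊕ Unit)).measure_preimage hm.nullMeasurableSet]
  have b1 := slepian (e := TopAe u) (e' := fun i s => 2 * u s i) (fun s => by
    rw [TopA_cv, TopA_cv']
    simp only [← sq, hu s]
    norm_num) (fun s t => by
    rw [TopA_cv, TopA_cv']
    nlinarith [sq_nonneg (∑ i, u s i * u t i - 1)])
    fun s => √n * (2 + ε - κ * (1 / 10 ^ 9) / 4 + κ * ∑ i ∈ T s, u s i ^ 2)
  have b2 := union_le (gm (Pair n ⊕ (Fin n ⊕ Unit))) fun k : Fin n ⊕ Unit =>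
    chi_one (Sum.inr k) ε n
  have b3 := chi_sum (univ : Finset (Fin n)) e0.le e1 (N := n) (by simp)
  have b4 := mass_le n
  rw [if_neg hn.ne'] at b4
  have b5 : gm (Fin n) {g | ∃ s, √n * (2 + ε - κ * (1 / 10 ^ 9) / 4 + κ * ∑ i ∈ T s, u s i ^ 2) ≤
      P150S.Hf (fun i s => 2 * u s i) g s} ≤ tl ε n + ENNReal.ofReal ((1 / 2) ^ n) := by
    refine le_trans (measure_mono ?_) ((measure_union_le _ _).trans (add_le_add b3 b4))
    rintro g ⟨s, hs⟩
    by_contra hc
    simp only [Set.mem_union, Set.mem_setOf_eq, not_or, not_le, not_exists, not_and] at hc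
    have h3 := vec_det hn (by positivity) h0 h1 (T s) hc.1 (hc.2 _ (hT s)).le (hu s)
    have h4 : P150S.Hf (fun i s => 2 * u s i) g s = 2 * ∑ i, g i * u s i := by
      rw [P150S.Hf, mul_sum]
      exact sum_congr rfl fun i _ => by ring
    linarith
  refine le_trans (measure_mono ?_) (((measure_union_le _ _).trans
    (add_le_add b2 (b1.trans b5))).trans_eq ?_)
  · rintro ω ⟨s, hs⟩
    refine or_iff_not_imp_left.2 fun hc => ⟨s, ?_⟩
    simp only [Set.mem_setOf_eq, not_exists, not_le] at hc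
    have hn' : 0 ≤ √(n : ℝ) := sqrt_nonneg _
    have h3 : ∀ k, -(ε * √n) ≤ ω (Sum.inr k) := fun k =>
      (abs_le_of_sq_le_sq' (by rw [mul_pow, sq_sqrt n.cast_nonneg]; exact (hc k).le)
        (by positivity)).1
    have h2 : √2 ≤ 2 := sqrt_le_left (by norm_num) |>.2 (by norm_num)
    have h2' : 0 ≤ √2 := sqrt_nonneg _
    have h4 : -(ε * √n) * √2 ≤ ∑ i, ω (Sum.inr (Sum.inl i)) * (√2 * u s i ^ 2) := by
      refine le_trans (le_of_eq ?_) (sum_le_sum fun i _ =>
        mul_le_mul_of_nonneg_right (h3 (Sum.inl i)) (by positivity))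
      rw [← mul_sum, ← mul_sum, hu s, mul_one]
    have h5 := mul_le_mul_of_nonneg_right (h3 (Sum.inr ())) h2'
    have h6 : ∑ p : Pair n, 2 * ω (Sum.inl p) * (u s p.1.1 * u s p.1.2) =
        ∑ p : Pair n, ω (Sum.inl p) * (2 * (u s p.1.1 * u s p.1.2)) :=
      sum_congr rfl fun p _ => by ring
    rw [quad_eq, h6] at hs
    simp only [P150S.Hf, TopAe, Fintype.sum_sum_type, Sum.elim_inl, Sum.elim_inr, univ_unique,
      sum_singleton, PUnit.default_eq_unit]
    have h7 := mul_le_mul_of_nonneg_left h2 (mul_nonneg e0.le hn')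
    linarith
  · simp only [Fintype.card_sum, Fintype.card_fin, Fintype.card_unit, Nat.cast_add, Nat.cast_one]
    ring

end

end Vale.Agent.P150H
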