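import Vale.Agent.P150H.Ball

/-! The vector side of the comparison. `mass_le`: union bound over `S` (`union_le`, `2 ^ n` sets), `small_ball` with `κ = S`,
`a p i = if p = i then 1 else 0`, `σ = 1`, `l = 10 ^ 9`: `exp n / 44000 ^ S.card ≤ (1 / 4) ^ n` because
`(4 * exp 1) ^ 4 ≤ 44000` and `n ≤ 4 * S.card`.
`vec_det`: put `a = √(∑ S, g²) / √n`, `b` the same for the complement, `p = √(∑ S, u²)`, `q`; Cauchy-Schwarz on `S` and `Sᶜ`;
`2 a p + 2 b q ≤ a² + b² + 1 - (a - p)²`; if `p² ≥ ρ / 4` use `κ p² ≥ κ ρ / 4`, else `(a - p)² ≥ ρ / 4 ≥ κ ρ / 4`. -/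

namespace Vale.Agent.P150H

open Vale.Agent.P150 Finset Function Real MeasureTheory ProbabilityTheory Filter Topology

noncomputable section

theorem mass_one (n : ℕ) (S : Finset (Fin n)) :
    gm (Fin n) {g | n ≤ 4 * S.card ∧ ∑ i ∈ S, g i ^ 2 ≤ 1 / 10 ^ 9 * n} ≤
      ENNReal.ofReal ((1 / 4) ^ n) := by
  by_cases hS : n ≤ 4 * S.card
  swap
  · simp [hS]
  have h := small_ball (κ := S) (fun (p : Fin n) i => if p = i then (1 : ℝ) else 0) (σ := 1)
    (l := 10 ^ 9) zero_le_one (by positivity) (fun θ => by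
      rw [one_mul]
      refine le_trans (le_of_eq ?_) (sum_le_sum_of_subset_of_nonneg (subset_univ S)
        fun _ _ _ => sq_nonneg _)
      rw [← sum_coe_sort S]
      refine sum_congr rfl fun p _ => ?_
      simp) (1 / 10 ^ 9 * n)
  refine (measure_mono fun g hg => ?_).trans (h.trans (ENNReal.ofReal_le_ofReal ?_))
  · have := hg.2
    rw [← sum_coe_sort S] at this
    simpa using this
  · have e : (10 : ℝ) ^ 9 * (1 / 10 ^ 9 * n) = n * 1 := by ring
    have a : (4 * exp 1) ^ 4 ≤ √(1 + 2 * 10 ^ 9 * 1) := by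
      refine le_trans ?_ (le_sqrt_of_sq_le (x := 44000) (by norm_num))
      refine (pow_le_pow_left₀ (by positivity) (b := 12) (by linarith [exp_one_lt_d9]) 4).trans
        (by norm_num)
    have b : (4 * exp 1) ^ n ≤ √(1 + 2 * 10 ^ 9 * 1) ^ S.card :=
      (pow_le_pow_right₀ (by linarith [exp_one_gt_d9]) hS).trans
        (by rw [pow_mul]; exact pow_le_pow_left₀ (by positivity) a _)
    rw [e, exp_nat_mul, Fintype.card_coe, inv_pow, ← div_eq_mul_inv, one_div, inv_pow,
      div_le_iff₀ (by positivity), le_inv_mul_iff₀ (by positivity), ← mul_pow]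
    exact b

theorem mass_le (n : ℕ) :
    gm (Fin n) {g | ∃ S : Finset (Fin n), n ≤ 4 * S.card ∧ ∑ i ∈ S, g i ^ 2 ≤ 1 / 10 ^ 9 * n} ≤
      if n = 0 then 1 else ENNReal.ofReal ((1 / 2) ^ n) := by
  split_ifs
  · exact prob_le_one
  refine (union_le _ (mass_one n)).trans (le_of_eq ?_)
  rw [Fintype.card_finset, Fintype.card_fin, ← ENNReal.ofReal_natCast, ← ENNReal.ofReal_mul
    (by positivity), Nat.cast_pow, ← mul_pow]
  norm_num

end

end Vale.Agent.P150H
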